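import Vale.Agent.Lib.P028Q.CIcellQ
import Vale.Agent.Lib.P028K.CI

/-! Part CIQ: the core inequality. Copy of CI_main. -/

open Finset

namespace Vale.Agent.Lib.P028Q

open Vale.Agent.Lib.P028
open Vale.Agent.Lib.P028T
open Vale.Agent.Lib.P028T.GcdAux
open Vale.Agent.Lib.P028G
open Vale.Agent.Lib.P028K

noncomputable section

/-- A numerical fact: `(n+1)^2 exp (XQ n) ≤ GEQ n` for all `n`. -/
lemma num_EQ : ∃ n0 : ℕ, ∀ n : ℕ, n0 ≤ n → ((n:ℝ) + 1) ^ 2 * Real.exp (XQ n) ≤ GEQ n := by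
  refine ⟨1, fun n hn => ?_⟩
  have hnR : (0:ℝ) ≤ n := Nat.cast_nonneg n
  have hx1 : (0:ℝ) < (n:ℝ) + 1 := by linarith
  have hx2 : (0:ℝ) < (n:ℝ) + 2 := by linarith
  have hl0 : 0 ≤ Real.log ((n:ℝ) + 2) := Real.log_nonneg (by linarith)
  have hlogn : Real.log ((n:ℝ) + 1) ≤ Real.log ((n:ℝ) + 2) :=
    Real.log_le_log hx1 (by linarith)
  have hsq : ((n:ℝ) + 1) ^ 2 = Real.exp (2 * Real.log ((n:ℝ) + 1)) := by
    rw [mul_comm, Real.exp_mul, Real.exp_log hx1]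
    norm_cast
  unfold GEQ
  rw [hsq, ← Real.exp_add]
  apply Real.exp_le_exp.2
  linarith

/-- A numerical fact: `GEQ n ≤ GG n` for large `n`. -/
lemma GEQ_le_GG : ∃ n0 : ℕ, ∀ n : ℕ, n0 ≤ n → GEQ n ≤ GG n := by
  have h2 := (isLittleO_log_rpow_atTop (show (0:ℝ) < 1 / 2 by norm_num)).bound
    (show (0:ℝ) < 1 / 73 by norm_num)
  obtain ⟨x0, hx0⟩ := Filter.eventually_atTop.1 h2
  refine ⟨max ⌈x0⌉₊ 6, fun n hn => ?_⟩
  have hn1 : ⌈x0⌉₊ ≤ n := (le_max_left _ _).trans hn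
  have hn2 : 6 ≤ n := (le_max_right _ _).trans hn
  have hnR : (6:ℝ) ≤ n := by exact_mod_cast hn2
  have hx : x0 ≤ (n:ℝ) + 2 := by
    have : (⌈x0⌉₊ : ℝ) ≤ n := by exact_mod_cast hn1
    have h6 := Nat.le_ceil x0
    linarith
  have hx2 : (0:ℝ) < (n:ℝ) + 2 := by linarith
  have hlog : 73 * Real.log ((n:ℝ) + 2) ≤ Real.sqrt ((n:ℝ) + 2) := by
    have h7 := hx0 _ hx
    rw [Real.norm_eq_abs, Real.norm_eq_abs, abs_of_nonneg (Real.rpow_nonneg hx2.le _)] at h7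
    rw [Real.sqrt_eq_rpow]
    have h8 := (le_abs_self _).trans h7
    linarith
  have hl2 : 2 ≤ Real.log ((n:ℝ) + 2) := by
    rw [Real.le_log_iff_exp_le hx2]
    have h1 : Real.exp 1 < 2.7182818286 := Real.exp_one_lt_d9
    have h0 : 0 < Real.exp 1 := Real.exp_pos 1
    have h2 : Real.exp 2 = Real.exp 1 * Real.exp 1 := by
      rw [← Real.exp_add]
      norm_num
    rw [h2]
    nlinarith
  have hsq : Real.sqrt ((n:ℝ) + 2) ≤ AA n := by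
    unfold AA
    apply Real.sqrt_le_sqrt
    nlinarith
  have hAA0 : 0 ≤ AA n := Real.sqrt_nonneg _
  unfold GEQ GG
  apply Real.exp_le_exp.2
  unfold XQ
  linarith

/-- The core inequality. Copy of `CI_main`: `(n+1)^2 exp (XQ n) ≤ GEQ n`, `GEQ n ≤ GG n` for large `n`. -/
theorem CI_main_Q {γ c₀ : ℝ} {κ : ℕ} (hγ : Dio γ c₀ κ) (hc₀ : 0 < c₀) (hκ : 1 ≤ κ) :
    ∃ n0 : ℕ, ∃ C : ℝ, 0 < C ∧ ∀ n : ℕ, n0 ≤ n → ∀ F : Finset ℕ, (∀ q ∈ F, 1 ≤ q) →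
      (2:ℝ) ^ n * GEQ n ≤ F.card → (F.card : ℝ) ≤ 2 * 2 ^ n * GEQ n →
      btSum γ ((2:ℝ) ^ n) F ≤ C * (F.card : ℝ) ^ 2 / (2:ℝ) ^ n := by
  obtain ⟨n1, hcell⟩ := cell_bound_Q hγ hc₀ hκ
  obtain ⟨n2, hE⟩ := num_EQ
  obtain ⟨n6, hGQG⟩ := GEQ_le_GG
  have hκ0 : (0:ℝ) < (κ:ℝ) + 1 := by positivity
  obtain ⟨τ, hτ⟩ : ∃ τ : ℝ, τ = (1:ℝ) / (4 * ((κ:ℝ) + 1)) := ⟨_, rfl⟩
  have hτpos : 0 < τ := by rw [hτ]; positivity
  have h2τ : (1:ℝ) / (2 * ((κ:ℝ) + 1)) = τ + τ := by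
    rw [hτ]
    field_simp
    norm_num
  obtain ⟨n3, hG⟩ := num_G (c := τ / 2) (by positivity)
  obtain ⟨n4, hgate⟩ := gate hγ hc₀ (κ := κ)
  refine ⟨max (max n1 n2) (max n3 (max n4 (max 1 n6))), 449, by norm_num, ?_⟩
  intro n hn F hF hlow hup
  have hn1 : n1 ≤ n := (le_max_left _ _ |>.trans (le_max_left _ _)).trans hn
  have hn2 : n2 ≤ n := (le_max_right _ _ |>.trans (le_max_left _ _)).trans hn
  have hn3 : n3 ≤ n := (le_max_left _ _ |>.trans (le_max_right _ _)).trans hn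
  have hn4 : n4 ≤ n := ((le_max_left _ _).trans (le_max_right _ _) |>.trans (le_max_right _ _)).trans hn
  have hnr : max 1 n6 ≤ n := ((le_max_right _ _).trans (le_max_right _ _) |>.trans (le_max_right _ _)).trans hn
  have hn5 : 1 ≤ n := (le_max_left _ _).trans hnr
  have hn6 : n6 ≤ n := (le_max_right _ _).trans hnr
  have hNpos : (0:ℝ) < (2:ℝ) ^ n := by positivity
  have hlogn0 : 0 ≤ Real.log ((n:ℝ) + 2) := Real.log_nonneg (by
    have : (0:ℝ) ≤ n := Nat.cast_nonneg n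
    linarith)
  have hXQ0 : 0 ≤ XQ n := by
    unfold XQ
    linarith
  have hGE1 : 1 ≤ GEQ n := by
    unfold GEQ
    exact Real.one_le_exp (by linarith)
  have hNK : (2:ℝ) ^ n ≤ F.card := by nlinarith
  have hGEKN : GEQ n ≤ (F.card : ℝ) / (2:ℝ) ^ n := by rwa [le_div_iff₀ hNpos, mul_comm]
  have hcardK : 2 ^ n ≤ F.card := by
    have : ((2 ^ n : ℕ) : ℝ) ≤ F.card := by
      push_cast
      exact hNK
    exact_mod_cast this
  have hcard2 : 2 ≤ F.card := by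
    calc 2 = 2 ^ 1 := by norm_num
      _ ≤ 2 ^ n := Nat.pow_le_pow_right (by norm_num) hn5
      _ ≤ _ := hcardK
  have hKGG : (F.card : ℝ) ≤ 2 * 2 ^ n * GG n := by
    refine hup.trans ?_
    have := hGQG n hn6
    have h2N : (0:ℝ) ≤ 2 * 2 ^ n := by positivity
    exact mul_le_mul_of_nonneg_left this h2N
  have hGG0 : 0 < GG n := Real.exp_pos _
  obtain ⟨a, ha⟩ : ∃ a : ℝ, a = ((2:ℝ) ^ n) ^ τ := ⟨_, rfl⟩
  obtain ⟨y, hy⟩ : ∃ y : ℝ, y = ((2:ℝ) ^ n) ^ (τ / 2) := ⟨_, rfl⟩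
  have hapos : 0 < a := by rw [ha]; positivity
  have hypos : 0 < y := by rw [hy]; positivity
  have hy2 : y ^ 2 = a := by
    rw [hy, ha, ← Real.rpow_natCast, ← Real.rpow_mul hNpos.le]
    congr 1
    push_cast
    ring
  have hgate' : ∀ A B H : ℕ, A ≠ B → A < 2 * H → B < 2 * H →
      dn (((A:ℝ) - B) * γ) < 4 * (H:ℝ) / (2:ℝ) ^ n → a * a ≤ H := by
    intro A B H h1 h2 h3 h4
    have h5 := hgate n hn4 A B H h1 h2 h3 h4
    rw [h2τ, Real.rpow_add hNpos, ← ha] at h5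
    exact h5
  have hcell' := hcell n hn1 F hF (by omega) hNK hKGG
  rw [← hτ, ← ha] at hcell'
  have hfib := fibre_bound (γ := γ) (E := Real.exp (XQ n)) (a := a) (y := y)
    hF hNK hKGG hcard2 (Real.exp_pos _).le hapos hypos hy2 hcell' hgate'
  have hnumX : ((n:ℝ) + 1) ^ 2 * (2 * GG n / y) ≤ 1 := by
    have h1 := hG n hn3
    rw [← hy] at h1
    have h2 : ((n:ℝ) + 1) ^ 2 * (2 * GG n / y) = 2 * (((n:ℝ) + 1) ^ 2 * GG n) / y := by ring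
    rw [h2, div_le_one hypos]
    exact h1
  exact assemble hF hNK (Real.exp_pos _).le (by positivity)
    (fun i hi1 hi2 => hfib i hi1 hi2) ((hE n hn2).trans hGEKN) hnumX

end

end Vale.Agent.Lib.P028Q
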