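import Vale.Agent.Lib.P028K.KL

/-! P028Q, definitions. See notes/P028Q_blueprint.md. -/

open Finset

namespace Vale.Agent.Lib.P028Q

open Vale.Agent.Lib.P028
open Vale.Agent.Lib.P028T
open Vale.Agent.Lib.P028K

noncomputable section

/-- `g = log log Y`. -/
def gQ (Y : ℕ) : ℝ := Real.log (Real.log Y)

/-- The small primes: `P = (50 ⌈√L⌉)^2`, `L = log Y`. -/
def PQ (Y : ℕ) : ℕ := ⌈(50 * ((⌈Real.sqrt (Real.log Y)⌉₊ : ℕ):ℝ)) ^ 2⌉₊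

/-- `Q0 = L^16`. -/
def Q0Q (Y : ℕ) : ℕ := ⌈(Real.log Y) ^ 16⌉₊

/-- `T = Y^(1/(200 g))`. -/
def TQ (Y : ℕ) : ℕ := ⌈(Y:ℝ) ^ (1 / (200 * gQ Y))⌉₊

/-- `S2 = T^(1/16)`. -/
def S2Q (Y : ℕ) : ℕ := ⌈(TQ Y : ℝ) ^ ((1:ℝ) / 16)⌉₊

/-- `j2 = L^(3/4)`. -/
def j2Q (Y : ℕ) : ℕ := ⌊(Real.log Y) ^ ((3:ℝ) / 4)⌋₊

/-- The main set. -/
def MQ (Y Y' : ℕ) : Finset ℕ := Mset (PQ Y) (Q0Q Y) (TQ Y) (TQ Y) (S2Q Y) (j2Q Y) Y Y'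

/-- The level of the bound of the average over twists: `exp (XQ n) = (n+2)^70`. -/
def XQ (n : ℕ) : ℝ := 70 * Real.log ((n:ℝ) + 2)

/-- The excess at level `n`: `GEQ n = (n+2)^73`. -/
def GEQ (n : ℕ) : ℝ := Real.exp (XQ n + 3 * Real.log ((n:ℝ) + 2))

end

end Vale.Agent.Lib.P028Q
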