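import Vale.Agent.Lib.P028Q.CIQ
import Vale.Agent.Lib.P028K.Final

/-! Part FinalQ: copy of `P028L/FinalL.lean` with `GEL` replaced by `GEQ`, new weight compare: `m ≤ 2 * 2^(-j)`, `ℓ + 3 ≥ (j+2)/2`, so `(ℓ+3)^(-80) ≤ 2^80 (j+2)^(-80) ≤ 2^80 (GEQ j)⁻¹ ((j+1)^2)⁻¹`. -/

open MeasureTheory Filter Finset

namespace Vale.Agent.Lib.P028Q

open Vale.Agent.Lib.P028
open Vale.Agent.Lib.P028T
open Vale.Agent.Lib.P028T.GcdAux
open Vale.Agent.Lib.P028G
open Vale.Agent.Lib.P028K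
open Vale.Agent.Lib.P028V (abstract_main)

lemma one_le_GEQ (n : ℕ) : 1 ≤ GEQ n := by
  unfold GEQ XQ
  have h : 0 ≤ Real.log ((n:ℝ) + 2) := Real.log_nonneg (by have : (0:ℝ) ≤ n := Nat.cast_nonneg n
                                                           linarith)
  exact Real.one_le_exp (by positivity)

/-- The choice of a dyadic level with many elements. -/
lemma level_selectQ {φ : ℕ → ℝ} (lev : ℕ → ℕ)
    (hlev : ∀ q, φ q ≠ 0 → φ q = ((1:ℝ) / 2) ^ lev q)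
    (hdiv : ¬ Summable fun q => if φ q = 0 then (0:ℝ) else
      ((1:ℝ) / 2) ^ lev q * ((GEQ (lev q))⁻¹ * (((lev q : ℝ) + 1) ^ 2)⁻¹)) (Y : ℕ) :
    ∃ (n : ℕ) (F : Finset ℕ), (∀ q ∈ F, Y ≤ q ∧ φ q = ((1:ℝ) / 2) ^ n) ∧
      (2:ℝ) ^ n * GEQ n ≤ (F.card : ℝ) := by
  classical
  by_contra hcon
  push Not at hcon
  apply hdiv
  obtain ⟨term, hterm⟩ : ∃ term : ℕ → ℝ, term = fun q => if φ q = 0 then (0:ℝ) else
      ((1:ℝ) / 2) ^ lev q * ((GEQ (lev q))⁻¹ * (((lev q : ℝ) + 1) ^ 2)⁻¹) := ⟨_, rfl⟩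
  rw [← hterm]
  have hgeo : Summable fun n : ℕ => (((n:ℝ) + 1) ^ 2)⁻¹ := by
    have h := (summable_nat_add_iff 1).2 (Real.summable_one_div_nat_pow.2 (by norm_num : 1 < 2))
    refine h.congr fun n => ?_
    push_cast
    simp [one_div]
  have hpow0 : ∀ q, 0 ≤ term q := by
    intro q
    rw [hterm]
    simp only
    split_ifs
    · exact le_rfl
    · have := one_le_GEQ (lev q)
      positivity
  have hpow1 : ∀ q, term q ≤ 1 := by
    intro q
    rw [hterm]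
    simp only
    split_ifs
    · norm_num
    · have h1 := one_le_GEQ (lev q)
      have h2 : (GEQ (lev q))⁻¹ ≤ 1 := inv_le_one_of_one_le₀ h1
      have h3 : (((lev q : ℝ) + 1) ^ 2)⁻¹ ≤ 1 := by
        apply inv_le_one_of_one_le₀
        have : (0:ℝ) ≤ lev q := Nat.cast_nonneg _
        nlinarith
      have h4 : ((1:ℝ) / 2) ^ lev q ≤ 1 := pow_le_one₀ (by norm_num) (by norm_num)
      have h5 : (GEQ (lev q))⁻¹ * (((lev q : ℝ) + 1) ^ 2)⁻¹ ≤ 1 :=
        mul_le_one₀ h2 (by positivity) h3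
      exact mul_le_one₀ h4 (by have : 0 < GEQ (lev q) := by linarith
                               positivity) h5
  refine summable_of_sum_le (c := (Y:ℝ) + ∑' n : ℕ, (((n:ℝ) + 1) ^ 2)⁻¹) hpow0 fun T => ?_
  -- the low part
  have hlow : ∑ q ∈ T.filter (· < Y), term q ≤ Y := by
    calc ∑ q ∈ T.filter (· < Y), term q ≤ ∑ _q ∈ T.filter (· < Y), (1:ℝ) :=
          Finset.sum_le_sum fun q _ => hpow1 q
      _ = ((T.filter (· < Y)).card : ℝ) := by simp
      _ ≤ Y := by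
          have : (T.filter (· < Y)) ⊆ Finset.range Y := by
            intro q hq
            exact Finset.mem_range.2 (Finset.mem_filter.1 hq).2
          have h2 := Finset.card_le_card this
          rw [Finset.card_range] at h2
          exact_mod_cast h2
  -- the high part
  set T₂ := T.filter (fun q => ¬ q < Y ∧ φ q ≠ 0) with hT₂
  have hfib : ∀ n ∈ T₂.image lev, ∑ q ∈ T₂.filter (fun q => lev q = n), term q ≤ (((n:ℝ) + 1) ^ 2)⁻¹ := by
    intro n _
    have hmem : ∀ q ∈ T₂.filter (fun q => lev q = n), Y ≤ q ∧ φ q = ((1:ℝ) / 2) ^ n := by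
      intro q hq
      obtain ⟨hq1, hq2⟩ := Finset.mem_filter.1 hq
      obtain ⟨-, hq3, hq4⟩ := Finset.mem_filter.1 hq1
      refine ⟨not_lt.1 hq3, ?_⟩
      rw [hlev q hq4, hq2]
    have hcard := hcon n _ hmem
    have hval : ∀ q ∈ T₂.filter (fun q => lev q = n),
        term q = ((1:ℝ) / 2) ^ n * ((GEQ n)⁻¹ * (((n:ℝ) + 1) ^ 2)⁻¹) := by
      intro q hq
      obtain ⟨hq1, hq2⟩ := Finset.mem_filter.1 hq
      obtain ⟨-, -, hq4⟩ := Finset.mem_filter.1 hq1
      rw [hterm]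
      simp only [if_neg hq4, hq2]
    rw [Finset.sum_congr rfl hval, Finset.sum_const, nsmul_eq_mul]
    have hGpos : 0 < GEQ n := Real.exp_pos _
    have hnn : (0:ℝ) ≤ ((1:ℝ) / 2) ^ n * ((GEQ n)⁻¹ * (((n:ℝ) + 1) ^ 2)⁻¹) := by positivity
    calc ((T₂.filter (fun q => lev q = n)).card : ℝ) * (((1:ℝ) / 2) ^ n * ((GEQ n)⁻¹ * (((n:ℝ) + 1) ^ 2)⁻¹))
        ≤ ((2:ℝ) ^ n * GEQ n) * (((1:ℝ) / 2) ^ n * ((GEQ n)⁻¹ * (((n:ℝ) + 1) ^ 2)⁻¹)) :=
          mul_le_mul_of_nonneg_right hcard.le hnn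
      _ = (((n:ℝ) + 1) ^ 2)⁻¹ := by
          have h2 : (2:ℝ) ^ n * ((1:ℝ) / 2) ^ n = 1 := by
            rw [← mul_pow]
            norm_num
          have h3 : GEQ n * (GEQ n)⁻¹ = 1 := mul_inv_cancel₀ hGpos.ne'
          calc ((2:ℝ) ^ n * GEQ n) * (((1:ℝ) / 2) ^ n * ((GEQ n)⁻¹ * (((n:ℝ) + 1) ^ 2)⁻¹))
              = ((2:ℝ) ^ n * ((1:ℝ) / 2) ^ n) * (GEQ n * (GEQ n)⁻¹) * (((n:ℝ) + 1) ^ 2)⁻¹ := by ring
            _ = _ := by rw [h2, h3]; ring
  have hhigh : ∑ q ∈ T₂, term q ≤ ∑' n : ℕ, (((n:ℝ) + 1) ^ 2)⁻¹ := by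
    have hmaps : ∀ q ∈ T₂, lev q ∈ T₂.image lev := fun q hq => Finset.mem_image_of_mem _ hq
    rw [← Finset.sum_fiberwise_of_maps_to hmaps]
    refine (Finset.sum_le_sum hfib).trans ?_
    exact hgeo.sum_le_tsum _ (fun n _ => by positivity)
  -- assemble
  have hsplit : ∑ q ∈ T, term q ≤ ∑ q ∈ T.filter (· < Y), term q + ∑ q ∈ T₂, term q := by
    rw [← Finset.sum_filter_add_sum_filter_not T (· < Y)]
    apply add_le_add le_rfl
    apply le_of_eq
    rw [hT₂, Finset.sum_filter, Finset.sum_filter]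
    apply Finset.sum_congr rfl
    intro q _
    by_cases h2 : q < Y
    · simp [h2]
    · by_cases h3 : φ q = 0
      · have : term q = 0 := by
          rw [hterm]
          simp [h3]
        simp [h2, h3, this]
      · simp [h2, h3]
  linarith

/-- The theorem for a dyadic function, non-Liouville shift. -/
theorem main_dyadicQ {γ c₀ : ℝ} {κ : ℕ} (hγ : Dio γ c₀ κ) (hc₀ : 0 < c₀) (hκ : 1 ≤ κ)
    (φ : ℕ → ℝ) (h0 : ∀ q, 0 ≤ φ q) (h1 : ∀ q, φ q ≤ 1 / 2)
    (lev : ℕ → ℕ) (hd : ∀ q, φ q ≠ 0 → φ q = ((1:ℝ) / 2) ^ lev q)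
    (hdiv : ¬ Summable fun q => if φ q = 0 then (0:ℝ) else
      ((1:ℝ) / 2) ^ lev q * ((GEQ (lev q))⁻¹ * (((lev q : ℝ) + 1) ^ 2)⁻¹)) :
    ∀ᵐ x : ℝ, ∃ᶠ q : ℕ in atTop, dn ((q:ℝ) * x - γ) < φ q := by
  classical
  obtain ⟨n0, C, hC, hCI⟩ := CI_main_Q hγ hc₀ hκ
  have hblocks : ∃ C₁ : ℝ, 0 < C₁ ∧ ∀ Y : ℕ, ∃ F : Finset ℕ, (∀ r ∈ F, Y ≤ r) ∧
      1 ≤ ∑ r ∈ F, ∫ x in (0:ℝ)..1, Phi γ φ r x ∧
      ∑ r ∈ F, ∑ q ∈ F.filter (· < r), ∫ x in (0:ℝ)..1, Phi γ φ q x * Phi γ φ r x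
        ≤ C₁ * (∑ r ∈ F, ∫ x in (0:ℝ)..1, Phi γ φ r x) ^ 2 := by
    refine ⟨772 + C + 2 ^ n0, by positivity, fun Y => ?_⟩
    obtain ⟨n, F₀, hF₀, hcard₀⟩ := level_selectQ lev hd hdiv (max Y 2)
    have hG1 := one_le_GEQ n
    have hGpos : 0 < GEQ n := by linarith
    obtain ⟨N, hNd⟩ : ∃ N : ℝ, N = (2:ℝ) ^ n := ⟨_, rfl⟩
    have hN1 : 1 ≤ N := by rw [hNd]; exact one_le_pow₀ (by norm_num)
    have hN0 : 0 < N := by linarith
    have hceil : ⌈(2:ℝ) ^ n * GEQ n⌉₊ ≤ F₀.card := Nat.ceil_le.2 hcard₀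
    obtain ⟨F, hFsub, hFcard⟩ := Finset.exists_subset_card_eq hceil
    have hF : ∀ q ∈ F, max Y 2 ≤ q ∧ φ q = ((1:ℝ) / 2) ^ n := fun q hq => hF₀ q (hFsub hq)
    have hqY : ∀ q ∈ F, Y ≤ q := fun q hq => (le_max_left _ _).trans (hF q hq).1
    have hq2 : ∀ q ∈ F, 2 ≤ q := fun q hq => (le_max_right _ _).trans (hF q hq).1
    have hv : ((1:ℝ) / 2) ^ n = 1 / N := by
      rw [hNd]
      simp [one_div, inv_pow]
    have hφF : ∀ q ∈ F, φ q = 1 / N := fun q hq => by rw [(hF q hq).2, hv]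
    obtain ⟨K, hKd⟩ : ∃ K : ℝ, K = (F.card : ℝ) := ⟨_, rfl⟩
    have hKlow : N * GEQ n ≤ K := by
      rw [hKd, hFcard, hNd]
      exact Nat.le_ceil _
    have hKup : (F.card : ℝ) ≤ 2 * 2 ^ n * GEQ n := by
      rw [hFcard]
      have h3 : (⌈(2:ℝ) ^ n * GEQ n⌉₊ : ℝ) < (2:ℝ) ^ n * GEQ n + 1 :=
        Nat.ceil_lt_add_one (by positivity)
      have h4 : (1:ℝ) ≤ (2:ℝ) ^ n * GEQ n := by
        rw [← hNd]
        nlinarith
      linarith
    have hNK : N ≤ K := by nlinarith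
    have hK1 : 1 ≤ K := by linarith
    have hK0 : 0 < K := by linarith
    have hint : ∑ r ∈ F, ∫ x in (0:ℝ)..1, Phi γ φ r x = K / N := by
      rw [Finset.sum_congr rfl fun r hr => integral_phi h0 h1 (hq2 r hr),
        Finset.sum_congr rfl hφF, Finset.sum_const, nsmul_eq_mul, hKd]
      ring
    have hM : 1 ≤ K / N := by
      rw [le_div_iff₀ hN0, one_mul]
      exact hNK
    refine ⟨F, hqY, ?_, ?_⟩
    · rw [hint]
      exact hM
    · rw [hint]
      -- the bound on the sum of pair terms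
      have hpairs : ∑ r ∈ F, ∑ q ∈ F.filter (· < r), pairTerm γ φ q r ≤ (C + 2 ^ n0) * (K / N) ^ 2 := by
        by_cases hn : n0 ≤ n
        · -- the core inequality
          have hbt := hCI n hn F (fun q hq => by have := hq2 q hq; omega)
            (by rw [← hNd, ← hKd]; exact hKlow) hKup
          rw [← hNd, ← hKd] at hbt
          have hterm : ∀ r ∈ F, ∑ q ∈ F.filter (· < r), pairTerm γ φ q r ≤
              (1 / N) * ∑ q ∈ F, (if q ≠ r ∧ (ht q r : ℝ) / N < 1 / 768 ∧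
                dn (((lowA q r : ℝ) - lowB q r) * γ) < 2 * ((ht q r : ℝ) / N) then 1 / (ht q r : ℝ) else 0) := by
            intro r hr
            rw [Finset.mul_sum]
            refine le_trans (Finset.sum_le_sum fun q hq => ?_) (Finset.sum_le_sum_of_subset_of_nonneg
              (Finset.filter_subset _ _) fun q _ _ => ?_)
            · have hqF : q ∈ F := (Finset.mem_filter.1 hq).1
              have hlt : q < r := (Finset.mem_filter.1 hq).2
              exact pairTerm_eq_bt hN0 (by have := hq2 q hqF; omega) (by have := hq2 r hr; omega)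
                (by omega) (hφF q hqF) (hφF r hr)
            · apply mul_nonneg (by positivity)
              split_ifs
              · positivity
              · exact le_rfl
          have hsw : ∑ r ∈ F, ∑ q ∈ F, (if q ≠ r ∧ (ht q r : ℝ) / N < 1 / 768 ∧
                dn (((lowA q r : ℝ) - lowB q r) * γ) < 2 * ((ht q r : ℝ) / N) then 1 / (ht q r : ℝ) else 0)
              = btSum γ N F := by
            unfold btSum
            exact Finset.sum_comm
          calc ∑ r ∈ F, ∑ q ∈ F.filter (· < r), pairTerm γ φ q r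
              ≤ ∑ r ∈ F, (1 / N) * ∑ q ∈ F, (if q ≠ r ∧ (ht q r : ℝ) / N < 1 / 768 ∧
                dn (((lowA q r : ℝ) - lowB q r) * γ) < 2 * ((ht q r : ℝ) / N) then 1 / (ht q r : ℝ) else 0) :=
                Finset.sum_le_sum hterm
            _ = (1 / N) * btSum γ N F := by rw [← Finset.mul_sum, hsw]
            _ ≤ (1 / N) * (C * K ^ 2 / N) := mul_le_mul_of_nonneg_left hbt (by positivity)
            _ = C * (K / N) ^ 2 := by field_simp
            _ ≤ (C + 2 ^ n0) * (K / N) ^ 2 := by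
                have : (0:ℝ) ≤ 2 ^ n0 * (K / N) ^ 2 := by positivity
                nlinarith
        · -- small levels
          push Not at hn
          have hNle : N ≤ 2 ^ n0 := by
            rw [hNd]
            exact pow_le_pow_right₀ (by norm_num) hn.le
          have hterm : ∀ r ∈ F, ∑ q ∈ F.filter (· < r), pairTerm γ φ q r ≤ K * (1 / N) := by
            intro r hr
            calc ∑ q ∈ F.filter (· < r), pairTerm γ φ q r
                ≤ ∑ _q ∈ F.filter (· < r), (1 / N) := by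
                  refine Finset.sum_le_sum fun q hq => ?_
                  have hqF : q ∈ F := (Finset.mem_filter.1 hq).1
                  have h3 := pairTerm_le' (γ := γ) (φ := φ) (v := 1 / N) (by positivity)
                    (q := q) (r := r) (by have := hq2 r hr; omega) (hφF q hqF) (hφF r hr)
                  have h4 : (1:ℝ) / (ht q r : ℝ) ≤ 1 := by
                    have hht : 1 ≤ ht q r := ht_pos (by have := hq2 r hr; omega)
                    have hhtR : (1:ℝ) ≤ ht q r := by exact_mod_cast hht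
                    rw [div_le_one (by linarith)]
                    exact hhtR
                  have h5 : (1 / N) * (1 / (ht q r : ℝ)) ≤ (1 / N) * 1 :=
                    mul_le_mul_of_nonneg_left h4 (by positivity)
                  linarith
              _ = ((F.filter (· < r)).card : ℝ) * (1 / N) := by simp
              _ ≤ K * (1 / N) := by
                  apply mul_le_mul_of_nonneg_right _ (by positivity)
                  rw [hKd]
                  exact_mod_cast Finset.card_filter_le _ _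
          calc ∑ r ∈ F, ∑ q ∈ F.filter (· < r), pairTerm γ φ q r
              ≤ ∑ _r ∈ F, (K * (1 / N)) := Finset.sum_le_sum hterm
            _ = K * (K * (1 / N)) := by rw [Finset.sum_const, nsmul_eq_mul, hKd]
            _ = N * (K / N) ^ 2 := by field_simp
            _ ≤ (C + 2 ^ n0) * (K / N) ^ 2 := by
                apply mul_le_mul_of_nonneg_right _ (by positivity)
                linarith
      have hsum : ∑ r ∈ F, ∑ q ∈ F.filter (· < r), ∫ x in (0:ℝ)..1, Phi γ φ q x * Phi γ φ r x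
          ≤ ∑ r ∈ F, ∑ q ∈ F.filter (· < r), (772 * ((1 / N) * (1 / N)) + pairTerm γ φ q r) := by
        refine Finset.sum_le_sum fun r hr => Finset.sum_le_sum fun q hq => ?_
        have hqF : q ∈ F := (Finset.mem_filter.1 hq).1
        have h2 := overlap_le (γ := γ) h0 h1 (hq2 q hqF) (hq2 r hr)
        rw [hφF q hqF, hφF r hr] at h2
        exact h2
      have hfirst : ∑ r ∈ F, ∑ _q ∈ F.filter (· < r), (772 * ((1 / N) * (1 / N))) ≤ 772 * (K / N) ^ 2 := by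
        have hterm : ∀ r ∈ F, ∑ _q ∈ F.filter (· < r), (772 * ((1 / N) * (1 / N))) ≤
            K * (772 * ((1 / N) * (1 / N))) := by
          intro r _
          rw [Finset.sum_const, nsmul_eq_mul]
          apply mul_le_mul_of_nonneg_right _ (by positivity)
          rw [hKd]
          exact_mod_cast Finset.card_filter_le _ _
        calc ∑ r ∈ F, ∑ _q ∈ F.filter (· < r), (772 * ((1 / N) * (1 / N)))
            ≤ ∑ _r ∈ F, (K * (772 * ((1 / N) * (1 / N)))) := Finset.sum_le_sum hterm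
          _ = K * (K * (772 * ((1 / N) * (1 / N)))) := by rw [Finset.sum_const, nsmul_eq_mul, hKd]
          _ = 772 * (K / N) ^ 2 := by field_simp
      have hsplit : ∑ r ∈ F, ∑ q ∈ F.filter (· < r), (772 * ((1 / N) * (1 / N)) + pairTerm γ φ q r)
          = ∑ r ∈ F, ∑ _q ∈ F.filter (· < r), (772 * ((1 / N) * (1 / N)))
            + ∑ r ∈ F, ∑ q ∈ F.filter (· < r), pairTerm γ φ q r := by
        simp only [Finset.sum_add_distrib]
      rw [hsplit] at hsum
      nlinarith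
  have h := abstract_main (Phi γ φ) phi_lip (fun r x => phi_nonneg r x)
    (fun r hr x => phi_le_one h1 hr x) (fun r x => phi_periodic r x)
    (fun L ε hL hε => phi_mix h0 h1 L ε hL hε) hblocks
  filter_upwards [h] with x hx
  apply (hx.and_eventually (eventually_ge_atTop 1)).mono
  intro q hq
  exact phi_pos_imp hq.2 hq.1

/-- Comparison of the weights: `(ℓ + 3)^(-80)` against the dyadic term with `GEQ`. -/
lemma weight_compareQ {j : ℕ} (hj : 2 ≤ j) {ℓ : ℝ} (hℓ : ((j:ℝ) - 1) * Real.log 2 ≤ ℓ) :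
    ((ℓ + 3) ^ 80)⁻¹ ≤ (2:ℝ) ^ 80 * ((GEQ j)⁻¹ * (((j:ℝ) + 1) ^ 2)⁻¹) := by
  have hjR : (2:ℝ) ≤ j := by exact_mod_cast hj
  have hl2 : (0.69:ℝ) < Real.log 2 := by
    have := Real.log_two_gt_d9
    linarith
  have hj2 : (j:ℝ) + 2 ≤ 2 * (ℓ + 3) := by
    have : (0.69:ℝ) * ((j:ℝ) - 1) ≤ ((j:ℝ) - 1) * Real.log 2 := by nlinarith
    nlinarith
  have hpos : (0:ℝ) < ℓ + 3 := by linarith
  have hb : (1:ℝ) ≤ (j:ℝ) + 2 := by linarith
  have hbpos : (0:ℝ) < (j:ℝ) + 2 := by linarith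
  -- `GEQ j = (j+2)^73`
  have hG : GEQ j = ((j:ℝ) + 2) ^ 73 := by
    unfold GEQ XQ
    have h1 : 70 * Real.log ((j:ℝ) + 2) + 3 * Real.log ((j:ℝ) + 2)
        = ((73:ℕ):ℝ) * Real.log ((j:ℝ) + 2) := by
      push_cast
      ring
    rw [h1, ← Real.log_pow, Real.exp_log (by positivity)]
  have h1 : ((j:ℝ) + 2) ^ 80 ≤ (2:ℝ) ^ 80 * (ℓ + 3) ^ 80 := by
    rw [← mul_pow]
    exact pow_le_pow_left₀ hbpos.le hj2 80
  have h2 : GEQ j * ((j:ℝ) + 1) ^ 2 ≤ ((j:ℝ) + 2) ^ 80 := by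
    rw [hG]
    have h3 : ((j:ℝ) + 1) ^ 2 ≤ ((j:ℝ) + 2) ^ 2 :=
      pow_le_pow_left₀ (by linarith) (by linarith) 2
    have h4 : ((j:ℝ) + 2) ^ 75 ≤ ((j:ℝ) + 2) ^ 80 := pow_le_pow_right₀ hb (by norm_num)
    calc ((j:ℝ) + 2) ^ 73 * ((j:ℝ) + 1) ^ 2 ≤ ((j:ℝ) + 2) ^ 73 * ((j:ℝ) + 2) ^ 2 :=
          mul_le_mul_of_nonneg_left h3 (by positivity)
      _ = ((j:ℝ) + 2) ^ 75 := by ring
      _ ≤ _ := h4
  have hGpos : 0 < GEQ j := by
    rw [hG]
    positivity
  have hsq : (0:ℝ) < ((j:ℝ) + 1) ^ 2 := by positivity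
  have hrhs : (2:ℝ) ^ 80 * ((GEQ j)⁻¹ * (((j:ℝ) + 1) ^ 2)⁻¹)
      = (2:ℝ) ^ 80 / (GEQ j * ((j:ℝ) + 1) ^ 2) := by
    rw [div_eq_mul_inv, mul_inv]
  rw [hrhs, inv_eq_one_div, div_le_div_iff₀ (by positivity) (by positivity)]
  calc 1 * (GEQ j * ((j:ℝ) + 1) ^ 2) ≤ ((j:ℝ) + 2) ^ 80 := by rw [one_mul]; exact h2
    _ ≤ (2:ℝ) ^ 80 * (ℓ + 3) ^ 80 := h1

/-- The theorem for non-Liouville shifts, with excess `(log (1/m) + 3)^80`. -/
theorem main_Q {γ c₀ : ℝ} {κ : ℕ} (hγ : Dio γ c₀ κ) (hc₀ : 0 < c₀) (hκ : 1 ≤ κ)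
    (ψ : ℕ → ℝ) (hψ : ∀ q, 0 ≤ ψ q)
    (hdiv : ¬ Summable fun q : ℕ => min (ψ q) (1 / 2) *
      ((Real.log (1 / min (ψ q) (1 / 2)) + 3) ^ 80)⁻¹) :
    ∀ᵐ x : ℝ, ∃ᶠ q : ℕ in atTop, dn ((q:ℝ) * x - γ) < ψ q := by
  classical
  set m : ℕ → ℝ := fun q => min (ψ q) (1 / 2) with hm
  have hm0 : ∀ q, 0 ≤ m q := fun q => le_min (hψ q) (by norm_num)
  have hm1 : ∀ q, m q ≤ 1 / 2 := fun q => min_le_right _ _
  have hex : ∀ q, ∃ j : ℕ, 0 < m q → ((1:ℝ) / 2) ^ j < m q ∧ m q ≤ 2 * ((1:ℝ) / 2) ^ j := by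
    intro q
    by_cases h : 0 < m q
    · obtain ⟨n, hn1, hn2⟩ := exists_nat_pow_near_of_lt_one h ((hm1 q).trans (by norm_num))
        (by norm_num : (0:ℝ) < 1 / 2) (by norm_num : (1:ℝ) / 2 < 1)
      refine ⟨n + 1, fun _ => ⟨hn1, ?_⟩⟩
      rw [pow_succ]
      linarith
    · exact ⟨0, fun h' => absurd h' h⟩
  choose lev hlev using hex
  obtain ⟨φ, hφ⟩ : ∃ φ : ℕ → ℝ, φ = fun q => if m q = 0 then 0 else ((1:ℝ) / 2) ^ lev q := ⟨_, rfl⟩
  have hφ0 : ∀ q, m q = 0 → φ q = 0 := fun q h => by rw [hφ]; simp [h]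
  have hφ1 : ∀ q, m q ≠ 0 → φ q = ((1:ℝ) / 2) ^ lev q := fun q h => by rw [hφ]; simp [h]
  have hφnn : ∀ q, 0 ≤ φ q := by
    intro q
    by_cases h : m q = 0
    · rw [hφ0 q h]
    · rw [hφ1 q h]
      positivity
  have hφle : ∀ q, φ q ≤ m q := by
    intro q
    by_cases h : m q = 0
    · rw [hφ0 q h, h]
    · rw [hφ1 q h]
      exact (hlev q (lt_of_le_of_ne (hm0 q) (Ne.symm h))).1.le
  have hφψ : ∀ q, φ q ≤ ψ q := fun q => (hφle q).trans (min_le_left _ _)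
  have hφne : ∀ q, φ q = 0 ↔ m q = 0 := by
    intro q
    constructor
    · intro h
      by_contra h2
      rw [hφ1 q h2] at h
      exact absurd h (by positivity)
    · exact hφ0 q
  have hφd : ∀ q, φ q ≠ 0 → φ q = ((1:ℝ) / 2) ^ lev q := by
    intro q hq
    exact hφ1 q (fun h => hq ((hφne q).2 h))
  have hφdiv : ¬ Summable fun q => if φ q = 0 then (0:ℝ) else
      ((1:ℝ) / 2) ^ lev q * ((GEQ (lev q))⁻¹ * (((lev q : ℝ) + 1) ^ 2)⁻¹) := by
    intro hs
    apply hdiv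
    refine Summable.of_nonneg_of_le (fun q => mul_nonneg (hm0 q) (inv_nonneg.2 (Even.pow_nonneg ⟨40, rfl⟩ _)))
      (fun q => ?_) (hs.mul_left (2 * (2:ℝ) ^ 80))
    by_cases h : m q = 0
    · change m q * _ ≤ _
      rw [h, if_pos ((hφne q).2 h)]
      simp
    · have hpos : 0 < m q := lt_of_le_of_ne (hm0 q) (Ne.symm h)
      rw [if_neg (fun h' => h ((hφne q).1 h'))]
      obtain ⟨h1, h2⟩ := hlev q hpos
      have hj : 2 ≤ lev q := by
        by_contra hcon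
        push Not at hcon
        have hle : (1:ℝ) / 2 ≤ ((1:ℝ) / 2) ^ lev q := by
          interval_cases (lev q)
          · norm_num
          · norm_num
        have := hm1 q
        linarith
      have hjR : (1:ℝ) ≤ (lev q : ℝ) - 1 := by
        have : (2:ℝ) ≤ lev q := by exact_mod_cast hj
        linarith
      have hℓ : ((lev q : ℝ) - 1) * Real.log 2 ≤ Real.log (1 / m q) := by
        have h3 : m q ≤ ((1:ℝ) / 2) ^ (lev q - 1) := by
          obtain ⟨i, hi⟩ : ∃ i, lev q = i + 1 := ⟨lev q - 1, by omega⟩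
          rw [hi, Nat.add_sub_cancel]
          rw [hi, pow_succ] at h2
          linarith
        have h4 : (2:ℝ) ^ (lev q - 1) ≤ 1 / m q := by
          rw [le_div_iff₀ hpos]
          have h5 : (2:ℝ) ^ (lev q - 1) * ((1:ℝ) / 2) ^ (lev q - 1) = 1 := by
            rw [← mul_pow]
            norm_num
          have h6 : (0:ℝ) < (2:ℝ) ^ (lev q - 1) := by positivity
          nlinarith
        have h7 := Real.log_le_log (by positivity) h4
        rw [Real.log_pow] at h7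
        have h8 : ((lev q - 1 : ℕ) : ℝ) = (lev q : ℝ) - 1 := by
          rw [Nat.cast_sub (by omega)]
          simp
        rwa [h8] at h7
      have hw := weight_compareQ hj hℓ
      have hexp0 : (0:ℝ) ≤ ((Real.log (1 / m q) + 3) ^ 80)⁻¹ :=
        inv_nonneg.2 (Even.pow_nonneg ⟨40, rfl⟩ _)
      have h2' : (0:ℝ) ≤ 2 * ((1:ℝ) / 2) ^ lev q := by
        have : (0:ℝ) ≤ ((1:ℝ) / 2) ^ lev q := pow_nonneg (by norm_num) _
        linarith
      have hstep := mul_le_mul h2 hw hexp0 h2'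
      generalize (2:ℝ) ^ 80 = A at hstep ⊢
      calc m q * ((Real.log (1 / m q) + 3) ^ 80)⁻¹
          ≤ (2 * ((1:ℝ) / 2) ^ lev q) * (A * ((GEQ (lev q))⁻¹ * (((lev q : ℝ) + 1) ^ 2)⁻¹)) := hstep
        _ = _ := by ring
  have h := main_dyadicQ hγ hc₀ hκ φ hφnn (fun q => (hφle q).trans (hm1 q)) lev hφd hφdiv
  filter_upwards [h] with x hx
  exact hx.mono fun q hq => lt_of_lt_of_le hq (hφψ q)

end Vale.Agent.Lib.P028Q
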