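import Vale.Agent.Lib.P028Q.KLspQ0
import Vale.Agent.Lib.P028Q.Defs

/-! Part KLspQ: the numerics of the moderate moment bound outside the main set (`KL_sp_Q`). -/

open Finset

namespace Vale.Agent.Lib.P028Q

open Vale.Agent.Lib.P028
open Vale.Agent.Lib.P028T
open Vale.Agent.Lib.P028K

noncomputable section

private lemma kq_lam (t K : ℝ) (ht : 24000000 ≤ t) (hK1 : t ^ 2 ≤ K) (hK2 : K < t ^ 2 + 1) :
    50 * t ^ 2 ≤ 50 * K ∧ 50 * K ≤ 100 * t ^ 2 ∧ 100 ≤ 50 * K := by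
  have h1 : 1 ≤ t ^ 2 := one_le_pow₀ (by linarith)
  have h2 : 24000000 * 24000000 ≤ t * t := mul_le_mul ht ht (by norm_num) (by linarith)
  have h3 : t ^ 2 = t * t := by ring
  refine ⟨by linarith, by linarith, by linarith⟩

private lemma kq_P (lam PP : ℝ) (hlam : 100 ≤ lam) (h1 : lam ^ 2 ≤ PP) (h2 : PP < lam ^ 2 + 1) :
    1 < PP ∧ 55 ≤ PP ∧ 100 * lam ≤ PP ∧ PP ≤ 2 * lam ^ 2 ∧ Real.sqrt PP ≤ 2 * lam := by
  have h3 : 100 * lam ≤ lam * lam := mul_le_mul_of_nonneg_right hlam (by linarith)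
  have h4 : lam ^ 2 = lam * lam := by ring
  have h5 : 100 * 100 ≤ 100 * lam := by linarith
  refine ⟨by linarith, by linarith, by linarith, by linarith, ?_⟩
  apply Real.sqrt_le_iff.2
  refine ⟨by linarith, ?_⟩
  have h6 : (2 * lam) ^ 2 = 4 * (lam * lam) := by ring
  rw [h6]
  linarith

private lemma kq_logP (t L g lam PP : ℝ) (hLt : L = t ^ 4) (hL0 : 0 < L) (hgdef : g = Real.log L) (hg : 20 ≤ g)
    (hlam0 : 0 < lam) (hlam2 : lam ≤ 100 * t ^ 2) (hP0 : 1 < PP) (hPup : PP ≤ 2 * lam ^ 2) :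
    Real.log PP ≤ 2 * g := by
  have hlamsq2 : lam ^ 2 ≤ 10000 * L := by
    rw [hLt]
    have h3 : lam ^ 2 ≤ (100 * t ^ 2) ^ 2 := pow_le_pow_left₀ hlam0.le hlam2 2
    calc lam ^ 2 ≤ (100 * t ^ 2) ^ 2 := h3
      _ = 10000 * t ^ 4 := by ring
  have he1' := Real.exp_one_gt_d9
  have hexp20 : (20000:ℝ) ≤ Real.exp g := by
    have h4 : Real.exp 20 = Real.exp 1 ^ 20 := by
      rw [← Real.exp_nat_mul]
      norm_num
    have h5 : (2:ℝ) ^ 20 ≤ Real.exp 1 ^ 20 := pow_le_pow_left₀ (by norm_num) (by linarith) 20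
    have h6 : Real.exp 20 ≤ Real.exp g := Real.exp_le_exp.2 hg
    norm_num at h5
    linarith
  have hlog20000 : Real.log 20000 ≤ g := by
    rw [Real.log_le_iff_le_exp (by norm_num)]
    exact hexp20
  have h3 : Real.log PP ≤ Real.log (20000 * L) := Real.log_le_log (by linarith) (by linarith)
  rw [Real.log_mul (by norm_num) hL0.ne', ← hgdef] at h3
  linarith

private lemma kq_Q (t L g lam PP Qr : ℝ) (hLt : L = t ^ 4) (hgdef : g = Real.log L) (ht : 24000000 ≤ t)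
    (hlam0 : 0 < lam) (hlam2 : lam ≤ 100 * t ^ 2) (hPup : PP ≤ 2 * lam ^ 2) (hQ1 : L ^ 16 ≤ Qr) (hQ2 : Qr < L ^ 16 + 1) :
    0 < Real.log Qr ∧ Real.log Qr ≤ 17 * g ∧ lam ^ 8 ≤ Qr ∧ PP ≤ Qr := by
  have ht0 : 0 < t := by linarith
  have ht4 : (1000:ℝ) ^ 4 ≤ t ^ 4 := pow_le_pow_left₀ (by norm_num) (by linarith) 4
  have hL100 : 1000000 ≤ L := by
    rw [hLt]
    norm_num at ht4
    linarith
  have hL0 : 0 < L := by linarith
  have hL1 : 1 ≤ L := by linarith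
  have hL16 : 1 ≤ L ^ 16 := one_le_pow₀ hL1
  have hQup : Qr ≤ 2 * L ^ 16 := by linarith
  have hlog2 : Real.log 2 ≤ 1 := by
    have := Real.log_le_sub_one_of_pos (show (0:ℝ) < 2 by norm_num)
    linarith
  have hg1 : 1 ≤ g := by
    rw [hgdef, Real.le_log_iff_exp_le hL0]
    have he1 := Real.exp_one_lt_d9
    linarith
  have hlogQ : Real.log Qr ≤ 17 * g := by
    have h3 : Real.log Qr ≤ Real.log (2 * L ^ 16) := Real.log_le_log (by linarith) hQup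
    rw [Real.log_mul (by norm_num) (by positivity), Real.log_pow, ← hgdef] at h3
    push_cast at h3
    linarith
  have hLpow : L ^ 2 ≤ L ^ 16 := pow_le_pow_right₀ hL1 (by norm_num)
  have hLL : 1000000 * L ≤ L ^ 2 := by
    have h3 := mul_le_mul_of_nonneg_right hL100 hL0.le
    have h4 : L ^ 2 = L * L := by ring
    rw [h4]
    exact h3
  have hQ100 : 2 < Qr := by linarith
  have hlogQ0 : 0 < Real.log Qr := Real.log_pos (by linarith)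
  have hlam8 : lam ^ 8 ≤ Qr := by
    refine le_trans ?_ hQ1
    have h3 : lam ^ 8 ≤ (100 * t ^ 2) ^ 8 := pow_le_pow_left₀ hlam0.le hlam2 8
    refine h3.trans ?_
    rw [hLt]
    have h4 : (100 * t ^ 2) ^ 8 = 100 ^ 8 * t ^ 16 := by ring
    have h5 : (t ^ 4) ^ 16 = t ^ 48 * t ^ 16 := by ring
    rw [h4, h5]
    apply mul_le_mul_of_nonneg_right _ (by positivity)
    have h6 : (100:ℝ) ^ 8 ≤ t ^ 8 := pow_le_pow_left₀ (by norm_num) (by linarith) 8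
    have h7 : t ^ 8 ≤ t ^ 48 := pow_le_pow_right₀ (by linarith) (by norm_num)
    linarith
  have hPQle : PP ≤ Qr := by
    have hlamsq : lam ^ 2 ≤ (100 * t ^ 2) ^ 2 := pow_le_pow_left₀ hlam0.le hlam2 2
    have h5 : (100 * t ^ 2) ^ 2 = 10000 * L := by
      rw [hLt]
      ring
    have h6 : 20000 * L ≤ L ^ 2 := by
      have h7 : 20000 * L ≤ 1000000 * L := mul_le_mul_of_nonneg_right (by norm_num) hL0.le
      linarith
    linarith
  exact ⟨hlogQ0, hlogQ, hlam8, hPQle⟩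

private lemma kq_key (t L g c : ℝ) (ht3 : 0 < t ^ 3) (hLt : L = t ^ 4) (hg0 : 0 < g) (hc : 0 < c) (h : c * g ≤ t) :
    t ^ 3 / 2 ≤ L * (1 / (2 * c * g)) := by
  rw [hLt]
  have h3 : c * g * t ^ 3 ≤ t * t ^ 3 := mul_le_mul_of_nonneg_right h ht3.le
  have h4 : t ^ 3 / 2 = (c * g * t ^ 3) * (1 / (2 * c * g)) := by
    field_simp
  rw [h4]
  apply mul_le_mul_of_nonneg_right _ (by positivity)
  calc c * g * t ^ 3 ≤ t * t ^ 3 := h3
    _ = t ^ 4 := by ring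

private lemma kq_T1 (t L g T : ℝ) (ht3 : 0 < t ^ 3) (hLt : L = t ^ 4) (hg0 : 0 < g) (h : 400 * g ≤ t) (hT0 : 0 < T)
    (hlogT : L * (1 / (200 * g)) ≤ Real.log T) :
    T ^ (-(1 / 4 : ℝ)) ≤ Real.exp (-(t ^ 3 / 2)) := by
  rw [Real.rpow_def_of_pos hT0]
  apply Real.exp_le_exp.2
  have h3 := kq_key t L g 400 ht3 hLt hg0 (by norm_num) h
  have h4 : L * (1 / (2 * 400 * g)) = (L * (1 / (200 * g))) * (1 / 4) := by
    field_simp
    ring
  rw [h4] at h3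
  linarith

private lemma kq_T2 (t : ℝ) (j : ℕ) (hj1 : t ^ 3 < (j:ℝ) + 1) :
    (1 / 2 : ℝ) ^ j ≤ 2 * Real.exp (-(t ^ 3 / 2)) := by
  have hhalf : (1 / 2 : ℝ) ≤ Real.exp (-(1 / 2)) := by
    have := Real.add_one_le_exp (-(1 / 2) : ℝ)
    linarith
  have h3 : (1 / 2 : ℝ) ^ (j + 1) ≤ Real.exp (-(1 / 2)) ^ (j + 1) :=
    pow_le_pow_left₀ (by norm_num) hhalf _
  rw [← Real.exp_nat_mul] at h3
  have h4 : Real.exp (((j + 1 : ℕ):ℝ) * (-(1 / 2))) ≤ Real.exp (-(t ^ 3 / 2)) := by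
    apply Real.exp_le_exp.2
    push_cast
    linarith
  have h5 : (1 / 2 : ℝ) ^ (j + 1) = (1 / 2) * (1 / 2 : ℝ) ^ j := by
    rw [pow_succ]
    ring
  linarith

private lemma kq_T3a (L g T S Tb Yr X : ℝ) (hL : 1000000 ≤ L) (hg : 20 ≤ g) (hT0 : 0 < T) (hS0 : 0 < S) (hS2T : S ≤ 2 * T)
    (hTup : T ≤ 2 * Tb) (hTbdef : Tb = Real.exp (L * (1 / (200 * g)))) (hexpL : Real.exp L = Yr)
    (hX : Yr / S ≤ X) (hX0 : 0 < X) :
    T * T / X ≤ Real.exp (-(L / 2)) := by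
  have hL0 : 0 < L := by linarith
  have he1' := Real.exp_one_gt_d9
  have hν : (L * (1 / (200 * g))) ≤ L / 4000 := by
    have h3 : 1 / (200 * g) ≤ 1 / 4000 := by
      apply one_div_le_one_div_of_le (by norm_num)
      linarith
    have h4 := mul_le_mul_of_nonneg_left h3 hL0.le
    calc (L * (1 / (200 * g))) ≤ L * (1 / 4000) := h4
      _ = L / 4000 := by ring
  rw [div_le_iff₀ hX0]
  have h3 : T * T * S ≤ Real.exp (L / 2) := by
    have h4 : T * T * S ≤ 2 * T ^ 3 := by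
      have h41 := mul_le_mul_of_nonneg_left hS2T (mul_pos hT0 hT0).le
      have h42 : T * T * (2 * T) = 2 * T ^ 3 := by ring
      linarith
    have h5 : T ^ 3 ≤ (2 * Tb) ^ 3 := pow_le_pow_left₀ hT0.le hTup 3
    have h6 : (2 * Tb) ^ 3 = 8 * Real.exp (3 * (L * (1 / (200 * g)))) := by
      rw [mul_pow, hTbdef, ← Real.exp_nat_mul]
      norm_num
    have h7 : (16:ℝ) ≤ Real.exp 3 := by
      have h4' : Real.exp 3 = Real.exp 1 ^ 3 := by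
        rw [← Real.exp_nat_mul]
        norm_num
      rw [h4']
      have h5' : (2.7182818283 : ℝ) ^ 3 ≤ Real.exp 1 ^ 3 :=
        pow_le_pow_left₀ (by norm_num) he1'.le 3
      norm_num at h5'
      linarith
    have h8 : 16 * Real.exp (3 * (L * (1 / (200 * g)))) ≤ Real.exp (L / 2) := by
      calc 16 * Real.exp (3 * (L * (1 / (200 * g)))) ≤ Real.exp 3 * Real.exp (3 * (L * (1 / (200 * g)))) :=
            mul_le_mul_of_nonneg_right h7 (Real.exp_pos _).le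
        _ = Real.exp (3 + 3 * (L * (1 / (200 * g)))) := by rw [Real.exp_add]
        _ ≤ Real.exp (L / 2) := by
            apply Real.exp_le_exp.2
            linarith
    rw [h6] at h5
    linarith
  have h4 : Real.exp (-(L / 2)) * Yr = Real.exp (L / 2) := by
    rw [← hexpL, ← Real.exp_add]
    congr 1
    ring
  have h5 : Yr ≤ X * S := (div_le_iff₀ hS0).1 hX
  have h6 : T * T * S ≤ Real.exp (-(L / 2)) * (X * S) := by
    calc T * T * S ≤ Real.exp (L / 2) := h3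
      _ = Real.exp (-(L / 2)) * Yr := h4.symm
      _ ≤ Real.exp (-(L / 2)) * (X * S) :=
          mul_le_mul_of_nonneg_left h5 (Real.exp_pos _).le
  have h7 : T * T * S ≤ Real.exp (-(L / 2)) * X * S := by
    rw [mul_assoc (Real.exp (-(L / 2)))]
    exact h6
  exact le_of_mul_le_mul_right h7 hS0

private lemma kq_T3 (t L g Qr Z : ℝ) (ht3 : 0 < t ^ 3) (hLt : L = t ^ 4) (hL0 : 0 < L) (hg0 : 0 < g) (h : 17 * g ≤ t)
    (hlogQ0 : 0 < Real.log Qr) (hlogQ : Real.log Qr ≤ 17 * g) (hZ0 : 0 ≤ Z) (hb : Z ≤ Real.exp (-(L / 2))) :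
    Z ^ (1 / Real.log Qr) ≤ Real.exp (-(t ^ 3 / 2)) := by
  have hexp0 : 0 ≤ 1 / Real.log Qr := by positivity
  have h3 : Z ^ (1 / Real.log Qr) ≤ Real.exp (-(L / 2)) ^ (1 / Real.log Qr) :=
    Real.rpow_le_rpow hZ0 hb hexp0
  rw [← Real.exp_mul] at h3
  refine h3.trans (Real.exp_le_exp.2 ?_)
  have h4 : 1 / (17 * g) ≤ 1 / Real.log Qr := one_div_le_one_div_of_le hlogQ0 hlogQ
  have h5 : (L / 2) * (1 / (17 * g)) = L * (1 / (2 * 17 * g)) := by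
    field_simp
  have h6 := kq_key t L g 17 ht3 hLt hg0 (by norm_num) h
  have h7 : (L / 2) * (1 / (17 * g)) ≤ (L / 2) * (1 / Real.log Qr) :=
    mul_le_mul_of_nonneg_left h4 (by linarith)
  have h8 : -(L / 2) * (1 / Real.log Qr) = -((L / 2) * (1 / Real.log Qr)) := by ring
  rw [h8]
  linarith

private lemma kq_S (t L g S PP : ℝ) (ht3 : 0 < t ^ 3) (hLt : L = t ^ 4) (hL0 : 0 < L) (hg0 : 0 < g)
    (h : 3200 * g * g ≤ t) (hS0 : 0 < S) (hlogS : (L * (1 / (200 * g))) * (1 / 16) ≤ Real.log S)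
    (hlogP0 : 0 < Real.log PP) (hlogP : Real.log PP ≤ 2 * g) :
    S ^ (-(1 / Real.log PP)) ≤ Real.exp (-(t ^ 3 / 2)) := by
  rw [Real.rpow_def_of_pos hS0]
  apply Real.exp_le_exp.2
  have h4 : 1 / (2 * g) ≤ 1 / Real.log PP := one_div_le_one_div_of_le hlogP0 hlogP
  have h5 := kq_key t L g (3200 * g) ht3 hLt hg0 (by positivity) h
  have h6 : L * (1 / (2 * (3200 * g) * g)) = (L * (1 / (200 * g))) * (1 / 16) * (1 / (2 * g)) := by
    field_simp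
    norm_num
  have h7 : (L * (1 / (200 * g))) * (1 / 16) * (1 / (2 * g)) ≤ Real.log S * (1 / Real.log PP) :=
    mul_le_mul hlogS h4 (by positivity) (le_trans (by positivity) hlogS)
  have h8 : Real.log S * -(1 / Real.log PP) = -(Real.log S * (1 / Real.log PP)) := by ring
  rw [h8]
  linarith

private lemma kq_fin (t L g lam PP Yr : ℝ) (ht : 24000000 ≤ t) (ht1 : 1200000 * g ≤ t) (hL1 : 1000000 ≤ L)
    (hgdef : g = Real.log L) (hg : 20 ≤ g)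
    (hY0 : 0 < Yr) (hLY : Real.log Yr = L) (hlam0 : 0 < lam) (hlam2 : lam ≤ 100 * t ^ 2) (hsqrtP : Real.sqrt PP ≤ 2 * lam) :
    5 + 9 * lam * (5 + 4 * Real.log (2 * Real.log (4 * Yr) + 2)) + 36 * Real.sqrt PP + t ^ 3 / 4 ≤ t ^ 3 / 2 := by
  have hL0 : 0 < L := by linarith
  have hlog4 : Real.log (4 * Yr) ≤ L + 3 := by
    rw [Real.log_mul (by norm_num) hY0.ne', hLY]
    have := Real.log_le_sub_one_of_pos (show (0:ℝ) < 4 by norm_num)
    linarith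
  have hY1 : 1 ≤ Yr := by
    by_contra hlt
    push Not at hlt
    have := Real.log_nonpos hY0.le hlt.le
    linarith
  have hlog4' : 0 ≤ Real.log (4 * Yr) := Real.log_nonneg (by linarith)
  have hlog3L : Real.log (2 * Real.log (4 * Yr) + 2) ≤ 2 + g := by
    have h3 : Real.log (2 * Real.log (4 * Yr) + 2) ≤ Real.log (3 * L) :=
      Real.log_le_log (by linarith) (by linarith)
    rw [Real.log_mul (by norm_num) hL0.ne', ← hgdef] at h3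
    have := Real.log_le_sub_one_of_pos (show (0:ℝ) < 3 by norm_num)
    linarith
  have hm : 5 + 4 * Real.log (2 * Real.log (4 * Yr) + 2) ≤ 7 * g := by linarith
  have h3 : 9 * lam * (5 + 4 * Real.log (2 * Real.log (4 * Yr) + 2)) ≤ 9 * (100 * t ^ 2) * (7 * g) := by
    apply mul_le_mul _ hm _ (by positivity)
    · linarith
    · have h4 : 0 ≤ Real.log (2 * Real.log (4 * Yr) + 2) := Real.log_nonneg (by linarith)
      linarith
  have ht20 : 0 ≤ t ^ 2 := by positivity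
  have h4 : t ^ 2 * (1200000 * g) ≤ t ^ 2 * t := mul_le_mul_of_nonneg_left ht1 ht20
  have h5 : t ^ 2 * t = t ^ 3 := by ring
  have h6 : t ^ 2 ≤ t ^ 2 * g := le_mul_of_one_le_right ht20 (by linarith)
  have h7 : 5 ≤ t ^ 2 := by
    have h71 : 24000000 * 24000000 ≤ t * t := mul_le_mul ht ht (by norm_num) (by linarith)
    have h72 : t ^ 2 = t * t := by ring
    linarith
  have h8 : 36 * Real.sqrt PP ≤ 72 * (100 * t ^ 2) := by linarith
  have h9 : 9 * (100 * t ^ 2) * (7 * g) = 6300 * (t ^ 2 * g) := by ring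
  have h10 : t ^ 2 * (1200000 * g) = 1200000 * (t ^ 2 * g) := by ring
  linarith

private lemma klsp_num_Q (Y : ℕ) (t : ℝ) (ht0 : 0 < t) (hLt : Real.log Y = t ^ 4)
    (hg : 20 ≤ Real.log (Real.log Y)) (hgt : 60000 * (Real.log (Real.log Y)) ^ 2 ≤ t)
    (h34 : (Real.log Y) ^ ((3:ℝ) / 4) = t ^ 3) (hsqrt : Real.sqrt (Real.log Y) = t ^ 2)
    (hY0 : (0:ℝ) < Y) :
    (2:ℝ) ≤ 50 * ((⌈Real.sqrt (Real.log Y)⌉₊ : ℕ) : ℝ) ∧
    100 * (50 * ((⌈Real.sqrt (Real.log Y)⌉₊ : ℕ) : ℝ)) ≤ (PQ Y:ℝ) ∧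
    (50 * ((⌈Real.sqrt (Real.log Y)⌉₊ : ℕ) : ℝ)) ^ 8 ≤ (Q0Q Y : ℝ) ∧
    PQ Y ≤ Q0Q Y ∧ 1 ≤ TQ Y ∧ 55 ≤ PQ Y ∧ 1 ≤ S2Q Y ∧
    (∀ X : ℝ, (Y:ℝ) / S2Q Y ≤ X → (TQ Y:ℝ) ^ (-(1 / 4 : ℝ)) + (1 / 2 : ℝ) ^ j2Q Y +
      ((TQ Y:ℝ) * TQ Y / X) ^ (1 / Real.log (Q0Q Y)) ≤ 4 * Real.exp (-((Real.log Y) ^ ((3:ℝ) / 4) / 2))) ∧
    ((S2Q Y:ℝ) ^ (-(1 / Real.log (PQ Y))) ≤ Real.exp (-((Real.log Y) ^ ((3:ℝ) / 4) / 2))) ∧
    (5 + 9 * (50 * ((⌈Real.sqrt (Real.log Y)⌉₊ : ℕ) : ℝ)) * (5 + 4 * Real.log (2 * Real.log (4 * Y) + 2)) +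
      36 * Real.sqrt (PQ Y) + (Real.log Y) ^ ((3:ℝ) / 4) / 4 ≤ (Real.log Y) ^ ((3:ℝ) / 4) / 2) := by
  obtain ⟨L, hLdef⟩ : ∃ L, L = Real.log Y := ⟨_, rfl⟩
  obtain ⟨g, hgdef⟩ : ∃ g, g = Real.log L := ⟨_, rfl⟩
  have hPQdef : PQ Y = ⌈(50 * ((⌈Real.sqrt L⌉₊ : ℕ):ℝ)) ^ 2⌉₊ := by
    rw [hLdef]
    rfl
  have hQ0def : Q0Q Y = ⌈L ^ 16⌉₊ := by
    rw [hLdef]
    rfl
  have hTdef' : TQ Y = ⌈(Y:ℝ) ^ (1 / (200 * g))⌉₊ := by
    rw [hgdef, hLdef]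
    rfl
  have hS2def : S2Q Y = ⌈(TQ Y : ℝ) ^ ((1:ℝ) / 16)⌉₊ := rfl
  have hj2def : j2Q Y = ⌊L ^ ((3:ℝ) / 4)⌋₊ := by
    rw [hLdef]
    rfl
  have hLY : Real.log Y = L := hLdef.symm
  rw [← hLdef] at hLt hg hgt h34 hsqrt ⊢
  rw [← hgdef] at hg hgt
  rw [h34]
  rw [hsqrt] at hPQdef ⊢
  rw [h34] at hj2def
  have hg0 : 0 < g := by linarith
  have hgsq : 20 * g ≤ g * g := mul_le_mul_of_nonneg_right hg hg0.le
  have hgg : g ^ 2 = g * g := by ring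
  have ht1 : 1200000 * g ≤ t := by linarith
  have ht2 : 24000000 ≤ t := by linarith
  have hL4 : (1000:ℝ) ^ 4 ≤ t ^ 4 := pow_le_pow_left₀ (by norm_num) (by linarith) 4
  have hL100 : 1000000 ≤ L := by
    rw [hLt]
    norm_num at hL4
    linarith
  have hL0 : 0 < L := by linarith
  have hexpL : Real.exp L = Y := by
    rw [hLdef]
    exact Real.exp_log hY0
  have hrpow : ∀ x : ℝ, (Y:ℝ) ^ x = Real.exp (L * x) := by
    intro x
    rw [Real.rpow_def_of_pos hY0, hLdef]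
  have ht3 : 0 < t ^ 3 := by positivity
  -- the ceiling of the square root
  obtain ⟨K, hKdef⟩ : ∃ K : ℝ, K = ((⌈t ^ 2⌉₊ : ℕ) : ℝ) := ⟨_, rfl⟩
  rw [← hKdef] at hPQdef ⊢
  have hK1 : t ^ 2 ≤ K := by
    rw [hKdef]
    exact Nat.le_ceil _
  have hK2 : K < t ^ 2 + 1 := by
    rw [hKdef]
    exact Nat.ceil_lt_add_one (by positivity)
  obtain ⟨hlam1, hlam2, hlam100⟩ := kq_lam t K ht2 hK1 hK2
  obtain ⟨lam, hlamdef⟩ : ∃ lam : ℝ, lam = 50 * K := ⟨_, rfl⟩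
  rw [← hlamdef] at hPQdef hlam1 hlam2 hlam100 ⊢
  have hlam0 : 0 < lam := by linarith
  -- P
  obtain ⟨PP, hPPdef⟩ : ∃ PP : ℝ, PP = (PQ Y : ℝ) := ⟨_, rfl⟩
  rw [← hPPdef]
  have hP1 : lam ^ 2 ≤ PP := by
    rw [hPPdef, hPQdef]
    exact Nat.le_ceil _
  have hP2 : PP < lam ^ 2 + 1 := by
    rw [hPPdef, hPQdef]
    exact Nat.ceil_lt_add_one (by positivity)
  obtain ⟨hP0, hP55, hP100, hPup, hsqrtP⟩ := kq_P lam PP hlam100 hP1 hP2
  have hlogP := kq_logP t L g lam PP hLt hL0 hgdef hg hlam0 hlam2 hP0 hPup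
  have hlogP0 : 0 < Real.log PP := Real.log_pos hP0
  -- Q
  obtain ⟨Qr, hQrdef⟩ : ∃ Qr : ℝ, Qr = (Q0Q Y : ℝ) := ⟨_, rfl⟩
  rw [← hQrdef]
  have hQ1 : L ^ 16 ≤ Qr := by
    rw [hQrdef, hQ0def]
    exact Nat.le_ceil _
  have hQ2 : Qr < L ^ 16 + 1 := by
    rw [hQrdef, hQ0def]
    exact Nat.ceil_lt_add_one (by positivity)
  obtain ⟨hlogQ0, hlogQ, hlam8, hPQle⟩ := kq_Q t L g lam PP Qr hLt hgdef ht2 hlam0 hlam2 hPup hQ1 hQ2
  -- T
  obtain ⟨Tb, hTbdef⟩ : ∃ Tb : ℝ, Tb = Real.exp (L * (1 / (200 * g))) := ⟨_, rfl⟩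
  have hTb1 : 1 ≤ Tb := by
    rw [hTbdef]
    exact Real.one_le_exp (by positivity)
  obtain ⟨T, hTdef⟩ : ∃ T : ℝ, T = (TQ Y : ℝ) := ⟨_, rfl⟩
  rw [← hTdef]
  have hT1 : Tb ≤ T := by
    rw [hTdef, hTdef', hTbdef, ← hrpow]
    exact Nat.le_ceil _
  have hT2 : T < Tb + 1 := by
    rw [hTdef, hTdef', hTbdef, ← hrpow]
    exact Nat.ceil_lt_add_one (by positivity)
  have hT0 : 0 < T := lt_of_lt_of_le (by norm_num) (hTb1.trans hT1)
  have hTT1 : 1 ≤ T := hTb1.trans hT1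
  have hTup : T ≤ 2 * Tb := by linarith only [hT2, hTb1]
  have hlogT : L * (1 / (200 * g)) ≤ Real.log T := by
    rw [Real.le_log_iff_exp_le hT0, ← hTbdef]
    exact hT1
  -- S2
  obtain ⟨S, hSdef⟩ : ∃ S : ℝ, S = (S2Q Y : ℝ) := ⟨_, rfl⟩
  rw [← hSdef]
  have hT116 : 1 ≤ T ^ ((1:ℝ) / 16) := Real.one_le_rpow hTT1 (by norm_num)
  have hS1 : T ^ ((1:ℝ) / 16) ≤ S := by
    rw [hSdef, hS2def, ← hTdef]
    exact Nat.le_ceil _
  have hS2 : S < T ^ ((1:ℝ) / 16) + 1 := by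
    rw [hSdef, hS2def, ← hTdef]
    exact Nat.ceil_lt_add_one (by positivity)
  have hT116' : T ^ ((1:ℝ) / 16) ≤ T := by
    calc T ^ ((1:ℝ) / 16) ≤ T ^ (1:ℝ) :=
          Real.rpow_le_rpow_of_exponent_le hTT1 (by norm_num)
      _ = T := Real.rpow_one T
  have hSS1 : 1 ≤ S := hT116.trans hS1
  have hS0 : 0 < S := lt_of_lt_of_le (by norm_num) hSS1
  have hS2T : S ≤ 2 * T := by linarith only [hS2, hT116', hTT1]
  have hlogS : (L * (1 / (200 * g))) * (1 / 16) ≤ Real.log S := by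
    have h3 := Real.log_le_log (by positivity) hS1
    rw [Real.log_rpow hT0] at h3
    linarith only [h3, hlogT]
  -- j2
  obtain ⟨j, hjdef⟩ : ∃ j : ℕ, j = j2Q Y := ⟨_, rfl⟩
  rw [← hjdef]
  rw [← hjdef] at hj2def
  have hj1 : t ^ 3 < (j:ℝ) + 1 := by
    rw [hj2def]
    exact Nat.lt_floor_add_one _
  refine ⟨?_, ?_, ?_, ?_, ?_, ?_, ?_, ?_, ?_, ?_⟩
  · linarith only [hlam100]
  · exact hP100
  · exact hlam8
  · rw [hPPdef, hQrdef] at hPQle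
    exact_mod_cast hPQle
  · rw [hTdef] at hTT1
    exact_mod_cast hTT1
  · rw [hPPdef] at hP55
    exact_mod_cast hP55
  · rw [hSdef] at hSS1
    exact_mod_cast hSS1
  · intro X hX
    have hX0 : 0 < X := lt_of_lt_of_le (div_pos hY0 hS0) hX
    have h1 := kq_T1 t L g T ht3 hLt hg0 (by linarith only [ht1, hg0]) hT0 hlogT
    have h2 := kq_T2 t j hj1
    have h3a := kq_T3a L g T S Tb (Y:ℝ) X hL100 hg hT0 hS0 hS2T hTup hTbdef hexpL hX hX0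
    have h3 := kq_T3 t L g Qr (T * T / X) ht3 hLt hL0 hg0 (by linarith only [ht1, hg0]) hlogQ0 hlogQ (by positivity) h3a
    linarith only [h1, h2, h3]
  · exact kq_S t L g S PP ht3 hLt hL0 hg0 (by linarith only [hgt, hgg, sq_nonneg g]) hS0 hlogS hlogP0 hlogP
  · exact kq_fin t L g lam PP (Y:ℝ) ht2 ht1 hL100 hgdef hg hY0 hLY hlam0 hlam2 hsqrtP

/-- Everything outside the main set, moderate moments with a large saving. -/
theorem KL_sp_Q_proved : ∃ Y0 : ℕ, ∀ Y Y' : ℕ, Y0 ≤ Y → Y' ≤ 2 * Y → ∀ (β : ℝ) (k : ℕ), 1 ≤ k →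
      (k:ℝ) ≤ Real.sqrt (Real.log Y) →
      ∀ (B M : ℕ) [NeZero M], (∀ a ∈ Ico Y Y', Fits B M a) →
        mm k (SS (B := B) (M := M) β (Ico Y Y' \ MQ Y Y')) ^ 2 ≤
          Y * Real.exp (-((Real.log Y) ^ ((3:ℝ) / 4) / 4)) := by
  have hδ0 : (0:ℝ) < 1 / 300 := by norm_num
  have hlo := (isLittleO_log_rpow_atTop (show (0:ℝ) < 1 / 8 by norm_num)).def hδ0
  obtain ⟨L1, hL1⟩ := Filter.eventually_atTop.1 hlo
  refine ⟨max 1 ⌈Real.exp (max (max L1 1) (Real.exp 20))⌉₊, ?_⟩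
  intro Y Y' hY hY' β k hk hkL B M _ hfit
  have hY1 : 1 ≤ Y := le_trans (le_max_left _ _) hY
  have hYe : ⌈Real.exp (max (max L1 1) (Real.exp 20))⌉₊ ≤ Y := le_trans (le_max_right _ _) hY
  have hYr : Real.exp (max (max L1 1) (Real.exp 20)) ≤ Y := (Nat.le_ceil _).trans (by exact_mod_cast hYe)
  have hY0 : (0:ℝ) < Y := lt_of_lt_of_le (Real.exp_pos _) hYr
  have hLbig : max (max L1 1) (Real.exp 20) ≤ Real.log Y := (Real.le_log_iff_exp_le hY0).2 hYr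
  have hL1' : L1 ≤ Real.log Y := le_trans (le_trans (le_max_left _ _) (le_max_left _ _)) hLbig
  have hLge1 : 1 ≤ Real.log Y := le_trans (le_trans (le_max_right _ _) (le_max_left _ _)) hLbig
  have hLe20 : Real.exp 20 ≤ Real.log Y := le_trans (le_max_right _ _) hLbig
  have hL0 : 0 < Real.log Y := by linarith
  have hg : 20 ≤ Real.log (Real.log Y) := (Real.le_log_iff_exp_le hL0).2 hLe20
  have hδ : Real.log (Real.log Y) ≤ 1 / 300 * (Real.log Y) ^ ((1:ℝ) / 8) := by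
    have h3 := hL1 _ hL1'
    rw [Real.norm_eq_abs, Real.norm_of_nonneg (by positivity)] at h3
    exact (le_abs_self _).trans h3
  obtain ⟨t, htdef⟩ : ∃ t : ℝ, t = (Real.log Y) ^ ((1:ℝ) / 4) := ⟨_, rfl⟩
  have ht0 : 0 < t := by
    rw [htdef]
    positivity
  have hLt : Real.log Y = t ^ 4 := by
    rw [htdef, ← Real.rpow_natCast, ← Real.rpow_mul hL0.le]
    norm_num
  have h34 : (Real.log Y) ^ ((3:ℝ) / 4) = t ^ 3 := by
    rw [htdef, ← Real.rpow_natCast, ← Real.rpow_mul hL0.le]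
    norm_num
  have hsqrt : Real.sqrt (Real.log Y) = t ^ 2 := by
    rw [hLt]
    have h3 : t ^ 4 = (t ^ 2) ^ 2 := by ring
    rw [h3]
    exact Real.sqrt_sq (by positivity)
  have hgt : 60000 * (Real.log (Real.log Y)) ^ 2 ≤ t := by
    have h3 : ((Real.log Y) ^ ((1:ℝ) / 8)) ^ 2 = t := by
      rw [htdef, ← Real.rpow_natCast, ← Real.rpow_mul hL0.le]
      norm_num
    have h4 : (Real.log (Real.log Y)) ^ 2 ≤ (1 / 300 * (Real.log Y) ^ ((1:ℝ) / 8)) ^ 2 :=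
      pow_le_pow_left₀ (by linarith) hδ 2
    rw [mul_pow, h3] at h4
    norm_num at h4
    linarith
  obtain ⟨h2, h100, hQ8, hPQ, hT1, hP55, hS21, hρ, hS, hfin⟩ :=
    klsp_num_Q Y t ht0 hLt hg hgt h34 hsqrt hY0
  have hlamk : 50 * (k:ℝ) ≤ 50 * ((⌈Real.sqrt (Real.log Y)⌉₊ : ℕ) : ℝ) := by
    have h3 : (k:ℝ) ≤ ((⌈Real.sqrt (Real.log Y)⌉₊ : ℕ) : ℝ) := hkL.trans (Nat.le_ceil _)
    linarith
  have h3pos : 0 ≤ (Real.log Y) ^ ((3:ℝ) / 4) := by positivity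
  exact klsp_core_Q (50 * ((⌈Real.sqrt (Real.log Y)⌉₊ : ℕ) : ℝ)) (PQ Y) (Q0Q Y) (TQ Y) (S2Q Y) (j2Q Y) Y Y' k B M β
    hY1 hY' hk hlamk h2 h100 hQ8 hPQ hT1 hP55 hS21 hfit _ hρ hS (by positivity) _ hfin (by positivity)

end

end Vale.Agent.Lib.P028Q
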