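import Vale.Agent.Lib.P028Q.KLmQ
import Vale.Agent.Lib.P028Q.KLspQ

/-! Part KLQ: the two moment bounds, high moments for the main set (`KL_m_Q`), moderate moments for the rest (`KL_sp_Q`). -/

open Finset

namespace Vale.Agent.Lib.P028Q

open Vale.Agent.Lib.P028
open Vale.Agent.Lib.P028T
open Vale.Agent.Lib.P028K

noncomputable section

/-- Everything outside the main set, moderate moments with a large saving. -/
theorem KL_sp_Q : ∃ Y0 : ℕ, ∀ Y Y' : ℕ, Y0 ≤ Y → Y' ≤ 2 * Y → ∀ (β : ℝ) (k : ℕ), 1 ≤ k → (k:ℝ) ≤ Real.sqrt (Real.log Y) →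
      ∀ (B M : ℕ) [NeZero M], (∀ a ∈ Ico Y Y', Fits B M a) →
        mm k (SS (B := B) (M := M) β (Ico Y Y' \ MQ Y Y')) ^ 2 ≤ Y * Real.exp (-((Real.log Y) ^ ((3:ℝ) / 4) / 4)) :=
  KL_sp_Q_proved

end

end Vale.Agent.Lib.P028Q
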