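import Vale.Agent.Lib.P028Q.KLQ
import Vale.Agent.Lib.P028K.MLDefs

/-! Part MLgoodQ: one good twist. Copy of `P028L/MLgoodL.lean` with two moment exponents: split `Ico Y Y'` along the main set,
`k₁ = ⌊L / 50⌋` on the main set with `KL_m_Q`, `k₂ = ⌊√L⌋` on the rest with `KL_sp_Q`. -/

open Finset

namespace Vale.Agent.Lib.P028Q

open Vale.Agent.Lib.P028
open Vale.Agent.Lib.P028T
open Vale.Agent.Lib.P028G
open Vale.Agent.Lib.P028K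

noncomputable section

private lemma GG_le (n : ℕ) : GG n ≤ Real.exp (100 * ((n:ℝ) + 1)) := by
  unfold GG
  apply Real.exp_le_exp.mpr
  obtain ⟨-, -, -, h, -⟩ := AA_facts n
  linarith

/-- Logarithmic size of `F`. -/
private lemma log_card_le (n : ℕ) (K : ℕ) (hK1 : 1 ≤ K) (hK : (K : ℝ) ≤ 2 * 2 ^ n * GG n) :
    Real.log K ≤ 102 * ((n:ℝ) + 1) := by
  have hK0 : (0:ℝ) < K := by exact_mod_cast hK1
  have hn : (0:ℝ) ≤ n := Nat.cast_nonneg n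
  have hl2 : Real.log 2 ≤ 1 := by
    have := Real.log_two_lt_d9
    linarith
  have h2pos : (0:ℝ) < 2 := by norm_num
  have hb : (K : ℝ) ≤ Real.exp (102 * ((n:ℝ) + 1)) := by
    have h2 : (2:ℝ) ≤ Real.exp 1 := by
      have := Real.add_one_le_exp (1:ℝ)
      linarith
    have hp : (2:ℝ) ^ n ≤ Real.exp (n:ℝ) := by
      calc (2:ℝ) ^ n ≤ (Real.exp 1) ^ n := pow_le_pow_left₀ (by norm_num) h2 n
        _ = Real.exp (n:ℝ) := by rw [← Real.exp_nat_mul]; simp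
    calc (K : ℝ) ≤ 2 * 2 ^ n * GG n := hK
      _ ≤ Real.exp 1 * Real.exp (n:ℝ) * Real.exp (100 * ((n:ℝ) + 1)) := by
          have := GG_le n
          have hG : 0 ≤ GG n := (Real.exp_pos _).le
          gcongr
      _ = Real.exp (1 + (n:ℝ) + 100 * ((n:ℝ) + 1)) := by
          rw [Real.exp_add, Real.exp_add]
      _ ≤ Real.exp (102 * ((n:ℝ) + 1)) := by
          apply Real.exp_le_exp.mpr
          linarith
  calc Real.log K ≤ Real.log (Real.exp (102 * ((n:ℝ) + 1))) := Real.log_le_log hK0 hb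
    _ = _ := Real.log_exp _

private lemma Yd_lower (Mm d : ℕ) (hd : 1 ≤ d) : (Mm:ℝ) / d ≤ (Yd Mm d : ℕ) := by
  have hd0 : (0:ℝ) < d := by exact_mod_cast hd
  rw [div_le_iff₀ hd0]
  have h : Mm ≤ Yd Mm d * d := by
    unfold Yd
    have h1 := Nat.div_add_mod (Mm + d - 1) d
    have h2 := Nat.mod_lt (Mm + d - 1) (show 0 < d by omega)
    have h3 : d * ((Mm + d - 1) / d) = (Mm + d - 1) / d * d := Nat.mul_comm _ _
    omega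
  exact_mod_cast h

private lemma Yd_upper (Mm d : ℕ) (hd : 1 ≤ d) : ((Yd Mm d : ℕ):ℝ) ≤ (Mm:ℝ) / d + 1 := by
  have hd0 : (0:ℝ) < d := by exact_mod_cast hd
  have h : Yd Mm d * d ≤ Mm + d := by
    unfold Yd
    have h1 := Nat.div_mul_le_self (Mm + d - 1) d
    omega
  have h' : ((Yd Mm d : ℕ):ℝ) * d ≤ (Mm:ℝ) + d := by exact_mod_cast h
  have : (Mm:ℝ) / d + 1 = ((Mm:ℝ) + d) / d := by field_simp
  rw [this, le_div_iff₀ hd0]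
  exact h'

/-- Numerical parameters. -/
private lemma good_params (c₄ : ℝ) (hc₄ : 0 < c₄) (Y0 : ℕ) (L0 : ℝ) (hL01 : 1 ≤ L0) (n : ℕ)
    (hn0 : max ((Y0:ℝ) + 1) L0 / (c₄ * Real.log 2) + 1 ≤ n) (Y : ℕ)
    (hYl : ((2:ℝ) ^ n) ^ c₄ ≤ (Y:ℝ)) (hYu : (Y:ℝ) ≤ 2 ^ (n + 1)) :
    Y0 ≤ Y ∧ 1 ≤ Y ∧ c₄ * Real.log 2 / 2 * ((n:ℝ) + 1) ≤ Real.log Y ∧ L0 ≤ Real.log Y ∧
      Real.log Y ≤ (n:ℝ) + 1 ∧ 1 ≤ (n:ℝ) := by
  have hlog2 : 0 < Real.log 2 := Real.log_pos (by norm_num)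
  have hlog2' : Real.log 2 ≤ 1 := by
    have := Real.log_two_lt_d9
    linarith
  have hdiv0 : 0 ≤ max ((Y0:ℝ) + 1) L0 / (c₄ * Real.log 2) := by
    have : 0 ≤ max ((Y0:ℝ) + 1) L0 := le_trans (by linarith) (le_max_right _ _)
    positivity
  have hn1 : (1:ℝ) ≤ n := by linarith
  have hcn : max ((Y0:ℝ) + 1) L0 ≤ c₄ * n * Real.log 2 := by
    have hcpos : 0 < c₄ * Real.log 2 := by positivity
    have h : max ((Y0:ℝ) + 1) L0 / (c₄ * Real.log 2) ≤ n := by linarith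
    rw [div_le_iff₀ hcpos] at h
    linarith
  have hcnL : L0 ≤ c₄ * n * Real.log 2 := le_trans (le_max_right _ _) hcn
  have hcn1 : 1 ≤ c₄ * n * Real.log 2 := le_trans hL01 hcnL
  have hcnY : (Y0:ℝ) + 1 ≤ c₄ * n * Real.log 2 := le_trans (le_max_left _ _) hcn
  have h2n : ((2:ℝ) ^ n) ^ c₄ = Real.exp (c₄ * n * Real.log 2) := by
    rw [Real.rpow_def_of_pos (by positivity), Real.log_pow]
    congr 1
    ring
  have hYl' : Real.exp (c₄ * n * Real.log 2) ≤ (Y:ℝ) := by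
    rw [← h2n]
    exact hYl
  have hexp_ge : c₄ * n * Real.log 2 + 1 ≤ Real.exp (c₄ * n * Real.log 2) := Real.add_one_le_exp _
  have hYbig : (Y0:ℝ) + 2 ≤ Y := by linarith
  have hY0Y : Y0 ≤ Y := by
    have : (Y0:ℝ) ≤ Y := by linarith
    exact_mod_cast this
  have hYpos : (0:ℝ) < Y := by
    have : (0:ℝ) ≤ Y0 := Nat.cast_nonneg _
    linarith
  have hY1 : 1 ≤ Y := by
    have : (0:ℝ) < Y := hYpos
    have h : 0 < Y := by exact_mod_cast this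
    omega
  have hlogl : c₄ * n * Real.log 2 ≤ Real.log Y := by
    rw [Real.le_log_iff_exp_le hYpos]
    exact hYl'
  have hlogYL0 : L0 ≤ Real.log Y := le_trans hcnL hlogl
  have hlogu : Real.log Y ≤ (n:ℝ) + 1 := by
    calc Real.log Y ≤ Real.log ((2:ℝ) ^ (n + 1)) := Real.log_le_log hYpos hYu
      _ = ((n + 1 : ℕ):ℝ) * Real.log 2 := Real.log_pow _ _
      _ ≤ ((n + 1 : ℕ):ℝ) * 1 := by gcongr
      _ = (n:ℝ) + 1 := by push_cast; ring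
  have hc'n : c₄ * Real.log 2 / 2 * ((n:ℝ) + 1) ≤ Real.log Y := by
    have hcpos : 0 < c₄ * Real.log 2 := by positivity
    have h1 : ((n:ℝ) + 1) ≤ 2 * n := by linarith
    have h3 := mul_le_mul_of_nonneg_left h1 hcpos.le
    have h4 : c₄ * Real.log 2 / 2 * ((n:ℝ) + 1) = c₄ * Real.log 2 * ((n:ℝ) + 1) / 2 := by ring
    have h5 : c₄ * Real.log 2 * (2 * (n:ℝ)) = 2 * (c₄ * n * Real.log 2) := by ring
    rw [h4]
    linarith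
  exact ⟨hY0Y, hY1, hc'n, hlogYL0, hlogu, hn1⟩

/-- `⌊x⌋` is comparable to `x` for `x ≥ 1`. -/
private lemma good_floor (x : ℝ) (hx1 : 1 ≤ x) : ∃ k : ℕ, 1 ≤ k ∧ (k:ℝ) ≤ x ∧ x / 2 ≤ k := by
  have hk1 : 1 ≤ ⌊x⌋₊ := Nat.le_floor (by simpa using hx1)
  refine ⟨⌊x⌋₊, hk1, Nat.floor_le (by linarith), ?_⟩
  have h1 : x < ((⌊x⌋₊ : ℕ):ℝ) + 1 := Nat.lt_floor_add_one x
  have h2 : (1:ℝ) ≤ ((⌊x⌋₊ : ℕ):ℝ) := by exact_mod_cast hk1
  linarith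

/-- The split of the kernel along a partition of the multipliers. -/
theorem BB_split {B M : ℕ} [NeZero M] (F A₁ A₂ : Finset ℕ) (θ : ℝ) (hdisj : Disjoint A₁ A₂)
    (h₁ : FitsProd B M F A₁) (h₂ : FitsProd B M F A₂) (h : FitsProd B M F (A₁ ∪ A₂)) :
    (BBc F (A₁ ∪ A₂) (A₁ ∪ A₂) θ).re ≤ 2 * (BBc F A₁ A₁ θ).re + 2 * (BBc F A₂ A₂ θ).re := by
  rw [BB_re_eq (B := B) (M := M) F _ θ h, BB_re_eq (B := B) (M := M) F _ θ h₁,
    BB_re_eq (B := B) (M := M) F _ θ h₂]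
  have hc := BB_card_pos (B := B) (M := M)
  unfold EE
  rw [← mul_div_assoc, ← mul_div_assoc, ← add_div]
  refine div_le_div_of_nonneg_right ?_ hc.le
  rw [Finset.mul_sum, Finset.mul_sum, ← Finset.sum_add_distrib]
  refine Finset.sum_le_sum fun ω _ => ?_
  have hS : SS θ (A₁ ∪ A₂) ω = SS θ A₁ ω + SS θ A₂ ω := by
    unfold SS
    exact Finset.sum_union hdisj
  rw [hS]
  have hw : 0 ≤ ‖∑ q ∈ F, ff ω q‖ ^ 2 := by positivity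
  have hn : ‖SS θ A₁ ω + SS θ A₂ ω‖ ^ 2 ≤ 2 * ‖SS θ A₁ ω‖ ^ 2 + 2 * ‖SS θ A₂ ω‖ ^ 2 := by
    have h1 := norm_add_le (SS θ A₁ ω) (SS θ A₂ ω)
    have h2 : ‖SS θ A₁ ω + SS θ A₂ ω‖ ^ 2 ≤ (‖SS θ A₁ ω‖ + ‖SS θ A₂ ω‖) ^ 2 :=
      pow_le_pow_left₀ (norm_nonneg _) h1 2
    nlinarith [sq_nonneg (‖SS θ A₁ ω‖ - ‖SS θ A₂ ω‖)]
  have := mul_le_mul_of_nonneg_left hn hw
  linarith

/-- The moment step on the two parts. -/
private lemma good_momentQ (F : Finset ℕ) (hFpos : ∀ q ∈ F, 1 ≤ q) (Y Y' : ℕ) (hY1 : 1 ≤ Y) (β : ℝ)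
    (k₁ k₂ : ℕ) (hk₁ : 1 ≤ k₁) (hk₂ : 1 ≤ k₂) (b₁ b₂ : ℝ)
    (hm : ∀ (B M : ℕ) [NeZero M], 2 ≤ M → (∀ a ∈ Ico 1 (Y' + 1), Fits B M a) →
      mm k₁ (SS (B := B) (M := M) β (MQ Y Y')) ^ 2 ≤ b₁)
    (hs : ∀ (B M : ℕ) [NeZero M], (∀ a ∈ Ico Y Y', Fits B M a) →
      mm k₂ (SS (B := B) (M := M) β (Ico Y Y' \ MQ Y Y')) ^ 2 ≤ b₂) :
    (BBc F (Ico Y Y') (Ico Y Y') β).re ≤ 2 * ((F.card : ℝ) ^ (1 + (1:ℝ) / k₁) * b₁) +
      2 * ((F.card : ℝ) ^ (1 + (1:ℝ) / k₂) * b₂) := by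
  obtain ⟨B, M, hM2, hFit⟩ := exists_torus (F ∪ {1}) (Ico 1 (Y' + 1))
    (by
      intro q hq
      rcases Finset.mem_union.mp hq with h | h
      · have := hFpos q h
        omega
      · rw [Finset.mem_singleton] at h
        omega)
    (by
      intro a ha
      have := (Finset.mem_Ico.mp ha).1
      omega)
  have : NeZero M := ⟨by omega⟩
  have hFits : ∀ a ∈ Ico 1 (Y' + 1), Fits B M a := by
    intro a ha
    have := hFit 1 (by simp) a ha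
    simpa using this
  have hFits' : ∀ a ∈ Ico Y Y', Fits B M a := by
    intro a ha
    obtain ⟨ha1, ha2⟩ := Finset.mem_Ico.mp ha
    exact hFits a (Finset.mem_Ico.mpr ⟨by omega, by omega⟩)
  have hFitP : FitsProd B M F (Ico Y Y') := by
    intro q hq a ha
    obtain ⟨ha1, ha2⟩ := Finset.mem_Ico.mp ha
    exact hFit q (Finset.mem_union_left _ hq) a (Finset.mem_Ico.mpr ⟨by omega, by omega⟩)
  have hsub : MQ Y Y' ⊆ Ico Y Y' := by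
    unfold MQ Mset
    exact Finset.filter_subset _ _
  have hFit1 : FitsProd B M F (MQ Y Y') := fun q hq a ha => hFitP q hq a (hsub ha)
  have hFit2 : FitsProd B M F (Ico Y Y' \ MQ Y Y') := fun q hq a ha =>
    hFitP q hq a (Finset.sdiff_subset ha)
  have hU : MQ Y Y' ∪ (Ico Y Y' \ MQ Y Y') = Ico Y Y' := Finset.union_sdiff_of_subset hsub
  have hsplit := BB_split (B := B) (M := M) F (MQ Y Y') (Ico Y Y' \ MQ Y Y') β
    Finset.disjoint_sdiff hFit1 hFit2 (by rw [hU]; exact hFitP)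
  rw [hU] at hsplit
  have hM1 := BB_moment (B := B) (M := M) k₁ hk₁ F (MQ Y Y') β hFit1
  have hM2' := BB_moment (B := B) (M := M) k₂ hk₂ F (Ico Y Y' \ MQ Y Y') β hFit2
  rw [← mm_sq k₁ hk₁] at hM1
  rw [← mm_sq k₂ hk₂] at hM2'
  have hb1 := hm B M hM2 hFits
  have hb2 := hs B M hFits'
  have h1 := mul_le_mul_of_nonneg_left hb1 (Real.rpow_nonneg (Nat.cast_nonneg F.card) (1 + (1:ℝ) / k₁))
  have h2 := mul_le_mul_of_nonneg_left hb2 (Real.rpow_nonneg (Nat.cast_nonneg F.card) (1 + (1:ℝ) / k₂))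
  linarith

/-- `log K / k₁ = O(1)`. -/
private lemma good_ratio1 (logK n1 L c' k : ℝ) (hc' : 0 < c') (hk : 0 < k)
    (hlogK : logK ≤ 102 * n1) (hL : c' * n1 ≤ L) (hxk : L / 50 / 2 ≤ k) :
    logK / k ≤ 10200 / c' := by
  rw [div_le_iff₀ hk]
  have h1 : n1 ≤ L / c' := by
    rw [le_div_iff₀ hc']
    linarith
  have h2 : 10200 / c' * (L / 50 / 2) ≤ 10200 / c' * k :=
    mul_le_mul_of_nonneg_left hxk (by positivity)
  have h3 : 10200 / c' * (L / 50 / 2) = 102 * (L / c') := by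
    field_simp
    ring
  linarith

/-- `log K / k₂ ≤ L^(3/4) / 4`. -/
private lemma good_ratio2 (logK n1 L c' k : ℝ) (hc' : 0 < c') (hk : 0 < k) (hL1 : 1 ≤ L)
    (hLc : (816 / c') ^ 4 ≤ L)
    (hlogK : logK ≤ 102 * n1) (hL : c' * n1 ≤ L) (hxk : Real.sqrt L / 2 ≤ k) :
    logK / k ≤ L ^ ((3:ℝ) / 4) / 4 := by
  have hL0 : 0 < L := by linarith
  rw [div_le_iff₀ hk]
  have h1 : n1 ≤ L / c' := by
    rw [le_div_iff₀ hc']
    linarith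
  have h14 : 816 / c' ≤ L ^ ((1:ℝ) / 4) := by
    have h := Real.rpow_le_rpow (by positivity) hLc (show (0:ℝ) ≤ 1 / 4 by norm_num)
    rwa [← Real.rpow_natCast, ← Real.rpow_mul (by positivity),
      show (((4:ℕ):ℝ)) * (1 / 4) = 1 by norm_num, Real.rpow_one] at h
  have hp : L ^ ((3:ℝ) / 4) * Real.sqrt L = L * L ^ ((1:ℝ) / 4) := by
    have h01 : L * L ^ ((1:ℝ) / 4) = L ^ ((1:ℝ) + 1 / 4) := by
      rw [Real.rpow_add hL0, Real.rpow_one]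
    rw [h01, Real.sqrt_eq_rpow, ← Real.rpow_add hL0]
    norm_num
  have hpos : 0 ≤ L ^ ((3:ℝ) / 4) / 4 := by positivity
  have h2 : L ^ ((3:ℝ) / 4) / 4 * (Real.sqrt L / 2) ≤ L ^ ((3:ℝ) / 4) / 4 * k :=
    mul_le_mul_of_nonneg_left hxk hpos
  have h3 : L ^ ((3:ℝ) / 4) / 4 * (Real.sqrt L / 2) = (L * L ^ ((1:ℝ) / 4)) / 8 := by
    rw [← hp]
    ring
  have h4 : L * (816 / c') ≤ L * L ^ ((1:ℝ) / 4) := mul_le_mul_of_nonneg_left h14 hL0.le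
  have h5 : L * (816 / c') / 8 = 102 * (L / c') := by
    field_simp
    ring
  linarith

/-- The final assembly. -/
private lemma good_assembleQ (K X Y U L c' n2 : ℝ) (k₁ k₂ : ℕ) (hK : 0 < K) (hL1 : 1 ≤ L) (hLn : L ≤ n2)
    (hY0 : 0 ≤ Y) (hYU : Y ≤ U)
    (hr1 : Real.log K / k₁ ≤ 10200 / c') (hr2 : Real.log K / k₂ ≤ L ^ ((3:ℝ) / 4) / 4)
    (hX : X ≤ 2 * (K ^ (1 + (1:ℝ) / k₁) * (Y * L ^ 33)) +
      2 * (K ^ (1 + (1:ℝ) / k₂) * (Y * Real.exp (-(L ^ ((3:ℝ) / 4) / 4))))) :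
    X ≤ K * U * ((2 * Real.exp (10200 / c') + 2) * n2 ^ 33) := by
  have hsplit : ∀ k : ℕ, K ^ (1 + (1:ℝ) / k) = K * K ^ ((1:ℝ) / k) := fun k => by
    rw [Real.rpow_add hK, Real.rpow_one]
  have hpow : ∀ (k : ℕ) (b : ℝ), Real.log K / k ≤ b → K ^ ((1:ℝ) / k) ≤ Real.exp b := fun k b hb => by
    rw [Real.rpow_def_of_pos hK]
    apply Real.exp_le_exp.mpr
    calc Real.log K * ((1:ℝ) / k) = Real.log K / k := by ring
      _ ≤ _ := hb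
  have hn20 : 1 ≤ n2 := le_trans hL1 hLn
  have hn33 : 1 ≤ n2 ^ 33 := one_le_pow₀ hn20
  have hL33 : L ^ 33 ≤ n2 ^ 33 := pow_le_pow_left₀ (by linarith) hLn 33
  have hU0 : 0 ≤ U := le_trans hY0 hYU
  have hE : 0 < Real.exp (10200 / c') := Real.exp_pos _
  have h1 : K ^ (1 + (1:ℝ) / k₁) * (Y * L ^ 33) ≤ K * U * (Real.exp (10200 / c') * n2 ^ 33) := by
    rw [hsplit]
    have h10 := hpow k₁ _ hr1
    calc K * K ^ ((1:ℝ) / k₁) * (Y * L ^ 33)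
        ≤ K * Real.exp (10200 / c') * (U * n2 ^ 33) := by
          gcongr
      _ = _ := by ring
  have h2 : K ^ (1 + (1:ℝ) / k₂) * (Y * Real.exp (-(L ^ ((3:ℝ) / 4) / 4))) ≤ K * U * n2 ^ 33 := by
    rw [hsplit]
    have h20 := hpow k₂ _ hr2
    have h21 : K ^ ((1:ℝ) / k₂) * Real.exp (-(L ^ ((3:ℝ) / 4) / 4)) ≤ 1 := by
      calc K ^ ((1:ℝ) / k₂) * Real.exp (-(L ^ ((3:ℝ) / 4) / 4))
          ≤ Real.exp (L ^ ((3:ℝ) / 4) / 4) * Real.exp (-(L ^ ((3:ℝ) / 4) / 4)) := by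
            gcongr
        _ = 1 := by
            rw [← Real.exp_add]
            simp
    calc K * K ^ ((1:ℝ) / k₂) * (Y * Real.exp (-(L ^ ((3:ℝ) / 4) / 4)))
        = K * Y * (K ^ ((1:ℝ) / k₂) * Real.exp (-(L ^ ((3:ℝ) / 4) / 4))) := by ring
      _ ≤ K * U * n2 ^ 33 := by
          have h22 : K * Y ≤ K * U := by gcongr
          have h23 : 0 ≤ K * U := by positivity
          calc K * Y * (K ^ ((1:ℝ) / k₂) * Real.exp (-(L ^ ((3:ℝ) / 4) / 4)))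
              ≤ K * U * 1 := by
                gcongr
            _ ≤ K * U * n2 ^ 33 := by
                gcongr
  calc X ≤ _ := hX
    _ ≤ 2 * (K * U * (Real.exp (10200 / c') * n2 ^ 33)) + 2 * (K * U * n2 ^ 33) := by
        linarith
    _ = _ := by ring

/-- A single good twist at a power scale. -/
theorem ML_good_Q (c₄ ν : ℝ) (hc₄ : 0 < c₄) (hν : 0 < ν) (hν1 : ν ≤ 1 / 16) :
    ∃ n0 : ℕ, ∃ C : ℝ, 0 < C ∧ ∀ n : ℕ, n0 ≤ n → ∀ F : Finset ℕ, (∀ q ∈ F, 1 ≤ q) → 1 ≤ F.card →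
      (F.card : ℝ) ≤ 2 * 2 ^ n * GG n → ∀ (Mm d : ℕ) (β : ℝ), 1 ≤ d → ((2:ℝ) ^ n) ^ c₄ ≤ (Mm:ℝ) / d → Mm ≤ 2 ^ n →
      MA β ⌊((Yd Mm d : ℕ):ℝ) ^ ν⌋₊ (((Yd Mm d : ℕ):ℝ) ^ (-(1 / 4 : ℝ))) →
      (BBc F (Nn Mm d) (Nn Mm d) β).re ≤ (F.card : ℝ) * ((Mm:ℝ) / d + 1) * (C * ((n:ℝ) + 2) ^ 33) := by
  obtain ⟨Y0m, hYm⟩ := KL_m_Q ν hν hν1
  obtain ⟨Y0s, hYs⟩ := KL_sp_Q
  have hlog2 : 0 < Real.log 2 := Real.log_pos (by norm_num)
  obtain ⟨c', hc'⟩ : ∃ c' : ℝ, c' = c₄ * Real.log 2 / 2 := ⟨_, rfl⟩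
  have hc'pos : 0 < c' := by rw [hc']; positivity
  obtain ⟨L0, hL0⟩ : ∃ L0 : ℝ, L0 = max 100 ((816 / c') ^ 4) := ⟨_, rfl⟩
  have hL01 : (100:ℝ) ≤ L0 := by rw [hL0]; exact le_max_left _ _
  have hL02 : (816 / c') ^ 4 ≤ L0 := by rw [hL0]; exact le_max_right _ _
  obtain ⟨Y0, hY0⟩ : ∃ Y0 : ℕ, Y0 = max Y0m Y0s := ⟨_, rfl⟩
  -- the threshold for `n`
  obtain ⟨n0, hn0⟩ : ∃ n0 : ℕ, max ((Y0:ℝ) + 1) L0 / (c₄ * Real.log 2) + 1 ≤ n0 := by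
    obtain ⟨m, hm⟩ := exists_nat_ge (max ((Y0:ℝ) + 1) L0 / (c₄ * Real.log 2) + 1)
    exact ⟨m, hm⟩
  refine ⟨n0, 2 * Real.exp (10200 / c') + 2, by positivity, ?_⟩
  intro n hn F hFpos hF1 hFcard Mm d β hd hpow hMm hMA
  have hnn0 : (n0:ℝ) ≤ n := by exact_mod_cast hn
  obtain ⟨Y, hYdef⟩ : ∃ Y : ℕ, Y = Yd Mm d := ⟨_, rfl⟩
  obtain ⟨Y', hY'def⟩ : ∃ Y' : ℕ, Y' = Yd' Mm d := ⟨_, rfl⟩
  rw [← hYdef] at hMA
  have hd0 : (1:ℝ) ≤ d := by exact_mod_cast hd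
  have hMmd : (Mm:ℝ) / d ≤ 2 ^ n := by
    have h1 : (Mm:ℝ) ≤ 2 ^ n := by exact_mod_cast hMm
    have h2 : (Mm:ℝ) / d ≤ Mm := div_le_self (Nat.cast_nonneg _) hd0
    linarith
  have hYu : (Y:ℝ) ≤ (Mm:ℝ) / d + 1 := by
    rw [hYdef]
    exact Yd_upper Mm d hd
  have hYl : ((2:ℝ) ^ n) ^ c₄ ≤ (Y:ℝ) := by
    rw [hYdef]
    exact le_trans hpow (Yd_lower Mm d hd)
  have hYu2 : (Y:ℝ) ≤ 2 ^ (n + 1) := by
    have : (1:ℝ) ≤ 2 ^ n := one_le_pow₀ (by norm_num)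
    rw [pow_succ]
    linarith
  obtain ⟨hY0Y, hY1, hc'n, hlogYL0, hlogu, hn1⟩ :=
    good_params c₄ hc₄ Y0 L0 (by linarith) n (le_trans hn0 hnn0) Y hYl hYu2
  rw [← hc'] at hc'n
  have hYpos : (0:ℝ) < Y := by exact_mod_cast hY1
  obtain ⟨L, hL⟩ : ∃ L : ℝ, L = Real.log Y := ⟨_, rfl⟩
  rw [← hL] at hc'n hlogYL0 hlogu
  have hL100 : 100 ≤ L := by linarith
  have hL1 : 1 ≤ L := by linarith
  have hsq1 : 1 ≤ Real.sqrt L := by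
    rw [Real.one_le_sqrt]
    exact hL1
  obtain ⟨k₁, hk₁, hk₁u, hk₁l⟩ := good_floor (L / 50) (by linarith)
  obtain ⟨k₂, hk₂, hk₂u, hk₂l⟩ := good_floor (Real.sqrt L) hsq1
  have hk₁pos : (0:ℝ) < k₁ := by exact_mod_cast hk₁
  have hk₂pos : (0:ℝ) < k₂ := by exact_mod_cast hk₂
  have hY'le : Y' ≤ 2 * Y := by
    rw [hY'def, hYdef]
    exact Yd'_le Mm d hd
  have hNn : Nn Mm d = Ico Y Y' := by
    rw [hYdef, hY'def]
    exact Nn_eq Mm d hd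
  rw [hNn]
  have hmomm := hYm Y Y' (le_trans (le_trans (le_max_left _ _) (le_of_eq hY0.symm)) hY0Y) hY'le β hMA k₁ hk₁
    (by rw [← hL]; exact hk₁u)
  have hmoms := hYs Y Y' (le_trans (le_trans (le_max_right _ _) (le_of_eq hY0.symm)) hY0Y) hY'le β k₂ hk₂
    (by rw [← hL]; exact hk₂u)
  have hX := good_momentQ F hFpos Y Y' hY1 β k₁ k₂ hk₁ hk₂ _ _ hmomm hmoms
  rw [← hL] at hX
  have hKpos : (0:ℝ) < F.card := by exact_mod_cast hF1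
  have hlogK := log_card_le n F.card hF1 hFcard
  have hr1 := good_ratio1 _ _ L c' _ hc'pos hk₁pos hlogK hc'n hk₁l
  have hr2 := good_ratio2 _ _ L c' _ hc'pos hk₂pos hL1 (le_trans hL02 hlogYL0) hlogK hc'n hk₂l
  exact good_assembleQ _ _ _ _ L c' _ k₁ k₂ hKpos hL1 (by linarith) hYpos.le hYu hr1 hr2 hX

end

end Vale.Agent.Lib.P028Q
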